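import Vale.Agent.Lib.P328.Tail

open Finset

namespace Vale.Agent.Lib.P328

variable {D : ℕ}

/-- Total size of a token profile: `τ L` tokens of size `L+1`. -/
def wt (τ : Fin D → ℕ) : ℕ := ∑ L, (L.val + 1) * τ L

/-- Weight of a token profile: reciprocal of the centralizer size of the cycle type
(`τ L` cycles of length `L+1`). -/
def tokWeight (τ : Fin D → ℕ) : ℚ :=
  ∏ L, (((L.val : ℚ) + 1) ^ τ L * ((τ L).factorial : ℚ))⁻¹

/-- All token profiles of total size `t` with token sizes at most `D`. -/
def profOf (D t : ℕ) : Finset (Fin D → ℕ) :=
  (Fintype.piFinset fun _ => Finset.range (t + 1)).filter fun τ => wt τ = t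

/-- The weight of a cell of value `t`: probability that a uniform permutation of `t` letters has
all cycles of length at most `D`. -/
def cellWeight (D t : ℕ) : ℚ := ∑ τ ∈ profOf D t, tokWeight τ

theorem le_wt (τ : Fin D → ℕ) (L : Fin D) : τ L ≤ wt τ := by
  calc τ L ≤ (L.val + 1) * τ L := Nat.le_mul_of_pos_left _ (Nat.succ_pos _)
    _ ≤ wt τ := Finset.single_le_sum (f := fun L : Fin D => (L.val + 1) * τ L)
        (fun _ _ => Nat.zero_le _) (Finset.mem_univ L)

theorem mem_profOf {t : ℕ} {τ : Fin D → ℕ} : τ ∈ profOf D t ↔ wt τ = t := by
  unfold profOf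
  simp only [mem_filter, Fintype.mem_piFinset, mem_range]
  constructor
  · exact fun h => h.2
  · intro h
    refine ⟨fun L => ?_, h⟩
    have := le_wt τ L
    omega

theorem tokWeight_nonneg (τ : Fin D → ℕ) : 0 ≤ tokWeight τ := by
  unfold tokWeight
  refine Finset.prod_nonneg fun L _ => ?_
  positivity

theorem cellWeight_nonneg (t : ℕ) : 0 ≤ cellWeight D t :=
  Finset.sum_nonneg fun τ _ => tokWeight_nonneg τ

/-- Removing one token of size `L+1` from a profile. -/
theorem tokWeight_update (σ : Fin D → ℕ) (L : Fin D) :
    ((L.val : ℚ) + 1) * ((σ L : ℚ) + 1) * tokWeight (Function.update σ L (σ L + 1)) = tokWeight σ := by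
  classical
  unfold tokWeight
  rw [← Finset.mul_prod_erase _ _ (Finset.mem_univ L),
    ← Finset.mul_prod_erase (a := L) univ (fun L => (((L.val : ℚ) + 1) ^ σ L * ((σ L).factorial : ℚ))⁻¹)
      (Finset.mem_univ L)]
  have e : ∏ x ∈ univ.erase L, (((x.val : ℚ) + 1) ^ (Function.update σ L (σ L + 1)) x
        * (((Function.update σ L (σ L + 1)) x).factorial : ℚ))⁻¹
      = ∏ x ∈ univ.erase L, (((x.val : ℚ) + 1) ^ σ x * ((σ x).factorial : ℚ))⁻¹ := by
    refine Finset.prod_congr rfl fun x hx => ?_
    rw [Function.update_of_ne (Finset.ne_of_mem_erase hx)]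
  rw [e, ← mul_assoc]
  congr 1
  simp only [Function.update_self]
  have h1 : ((L.val : ℚ) + 1) ≠ 0 := by positivity
  have h2 : ((σ L : ℚ) + 1) ≠ 0 := by positivity
  have h3 : ((σ L).factorial : ℚ) ≠ 0 := by positivity
  rw [Nat.factorial_succ, pow_succ]
  push_cast
  field_simp

theorem wt_update (σ : Fin D → ℕ) (L : Fin D) :
    wt (Function.update σ L (σ L + 1)) = wt σ + (L.val + 1) := by
  classical
  unfold wt
  refine sum_add_single _ _ L _ ?_ ?_
  · simp only [Function.update_self]; ring
  · intro q hq
    rw [Function.update_of_ne hq]

/-- The recursion for the cell weights. -/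
theorem cellWeight_rec (t : ℕ) :
    (t : ℚ) * cellWeight D t = ∑ L : Fin D, if L.val + 1 ≤ t then cellWeight D (t - (L.val + 1)) else 0 := by
  classical
  have hstep : ∀ L : Fin D, ∑ τ ∈ profOf D t, ((L.val : ℚ) + 1) * (τ L : ℚ) * tokWeight τ
      = if L.val + 1 ≤ t then cellWeight D (t - (L.val + 1)) else 0 := by
    intro L
    split_ifs with hL
    · -- bijection with profiles of smaller size
      unfold cellWeight
      have hpos : ∑ τ ∈ profOf D t, ((L.val : ℚ) + 1) * (τ L : ℚ) * tokWeight τ
          = ∑ τ ∈ (profOf D t).filter (fun τ => 1 ≤ τ L), ((L.val : ℚ) + 1) * (τ L : ℚ) * tokWeight τ := by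
        rw [Finset.sum_filter]
        refine Finset.sum_congr rfl fun τ _ => ?_
        split_ifs with h
        · rfl
        · have : τ L = 0 := by omega
          simp [this]
      rw [hpos]
      symm
      refine Finset.sum_bij' (fun σ _ => Function.update σ L (σ L + 1))
        (fun τ _ => Function.update τ L (τ L - 1)) ?_ ?_ ?_ ?_ ?_
      · intro σ hσ
        simp only [mem_filter, mem_profOf] at hσ ⊢
        constructor
        · rw [wt_update, hσ]; omega
        · simp
      · intro τ hτ
        simp only [mem_filter, mem_profOf] at hτ ⊢
        have h1 := hτ.2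
        have h2 : wt (Function.update (Function.update τ L (τ L - 1)) L
            ((Function.update τ L (τ L - 1)) L + 1)) = wt (Function.update τ L (τ L - 1)) + (L.val + 1) :=
          wt_update _ L
        have h3 : Function.update (Function.update τ L (τ L - 1)) L
            ((Function.update τ L (τ L - 1)) L + 1) = τ := by
          funext x
          by_cases hx : x = L
          · subst hx
            simp
            omega
          · simp [Function.update_of_ne hx]
        rw [h3, hτ.1] at h2
        omega
      · intro σ _
        funext x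
        by_cases hx : x = L
        · subst hx
          simp
        · simp [Function.update_of_ne hx]
      · intro τ hτ
        simp only [mem_filter] at hτ
        funext x
        by_cases hx : x = L
        · subst hx
          simp
          omega
        · simp [Function.update_of_ne hx]
      · intro σ _
        have := tokWeight_update σ L
        rw [← this]
        simp only [Function.update_self]
        push_cast
        ring
    · refine Finset.sum_eq_zero fun τ hτ => ?_
      have hτ' := mem_profOf.1 hτ
      have hz : τ L = 0 := by
        by_contra hne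
        have h1 : 1 ≤ τ L := Nat.one_le_iff_ne_zero.2 hne
        have h2 : (L.val + 1) * τ L ≤ wt τ :=
          Finset.single_le_sum (f := fun L : Fin D => (L.val + 1) * τ L)
            (fun _ _ => Nat.zero_le _) (Finset.mem_univ L)
        have h3 : (L.val + 1) * 1 ≤ (L.val + 1) * τ L := Nat.mul_le_mul_left _ h1
        omega
      simp [hz]
  calc (t : ℚ) * cellWeight D t
      = ∑ τ ∈ profOf D t, (wt τ : ℚ) * tokWeight τ := by
        unfold cellWeight
        rw [Finset.mul_sum]
        refine Finset.sum_congr rfl fun τ hτ => ?_
        rw [mem_profOf.1 hτ]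
    _ = ∑ τ ∈ profOf D t, ∑ L : Fin D, ((L.val : ℚ) + 1) * (τ L : ℚ) * tokWeight τ := by
        refine Finset.sum_congr rfl fun τ _ => ?_
        unfold wt
        push_cast
        rw [Finset.sum_mul]
    _ = ∑ L : Fin D, ∑ τ ∈ profOf D t, ((L.val : ℚ) + 1) * (τ L : ℚ) * tokWeight τ :=
        Finset.sum_comm
    _ = _ := Finset.sum_congr rfl fun L _ => hstep L

theorem cellWeight_zero : cellWeight D 0 = 1 := by
  classical
  have : profOf D 0 = {fun _ => 0} := by
    ext τ
    simp only [mem_profOf, mem_singleton]
    constructor
    · intro h
      funext L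
      have := le_wt τ L
      omega
    · rintro rfl
      simp [wt]
  unfold cellWeight
  rw [this, Finset.sum_singleton]
  simp [tokWeight]

/-- Cell weights are at most one. -/
theorem cellWeight_le_one (t : ℕ) : cellWeight D t ≤ 1 := by
  classical
  induction t using Nat.strong_induction_on with
  | _ t ih =>
    rcases Nat.eq_zero_or_pos t with rfl | htpos
    · rw [cellWeight_zero]
    · have h := cellWeight_rec (D := D) t
      have hle : ∑ L : Fin D, (if L.val + 1 ≤ t then cellWeight D (t - (L.val + 1)) else 0)
          ≤ ∑ L : Fin D, (if L.val < t then (1 : ℚ) else 0) := by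
        refine Finset.sum_le_sum fun L _ => ?_
        by_cases hL : L.val + 1 ≤ t
        · have hL' : L.val < t := hL
          rw [if_pos hL, if_pos hL']
          exact ih _ (by omega)
        · have hL' : ¬ L.val < t := hL
          rw [if_neg hL, if_neg hL']
      have hcard : ∑ L : Fin D, (if L.val < t then (1 : ℚ) else 0) ≤ (t : ℚ) := by
        rw [Finset.sum_boole]
        have : (univ.filter fun L : Fin D => L.val < t).card = min D t := by
          have := Fin.card_filter_val_lt (n := D) (m := t)
          simpa using this
        rw [this]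
        exact_mod_cast Nat.min_le_right D t
      have htq : (0 : ℚ) < t := by exact_mod_cast htpos
      have : (t : ℚ) * cellWeight D t ≤ (t : ℚ) * 1 := by
        rw [mul_one, h]
        exact hle.trans hcard
      exact le_of_mul_le_mul_left this htq

/-- Cell weights are one up to value `D`. -/
theorem cellWeight_eq_one {t : ℕ} (ht : t ≤ D) : cellWeight D t = 1 := by
  classical
  induction t using Nat.strong_induction_on with
  | _ t ih =>
    rcases Nat.eq_zero_or_pos t with rfl | htpos
    · exact cellWeight_zero
    · have h := cellWeight_rec (D := D) t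
      have he : ∑ L : Fin D, (if L.val + 1 ≤ t then cellWeight D (t - (L.val + 1)) else 0)
          = ∑ L : Fin D, (if L.val < t then (1 : ℚ) else 0) := by
        refine Finset.sum_congr rfl fun L _ => ?_
        by_cases hL : L.val + 1 ≤ t
        · have hL' : L.val < t := hL
          rw [if_pos hL, if_pos hL']
          exact ih _ (by omega) (by omega)
        · have hL' : ¬ L.val < t := hL
          rw [if_neg hL, if_neg hL']
      have hcard : ∑ L : Fin D, (if L.val < t then (1 : ℚ) else 0) = (t : ℚ) := by
        rw [Finset.sum_boole]
        have : (univ.filter fun L : Fin D => L.val < t).card = min D t := by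
          have := Fin.card_filter_val_lt (n := D) (m := t)
          simpa using this
        rw [this, min_eq_right ht]
      have htq : (t : ℚ) ≠ 0 := by
        have : 0 < t := htpos
        positivity
      rw [he, hcard] at h
      exact mul_left_cancel₀ htq (by rw [h, mul_one])

end Vale.Agent.Lib.P328
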