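import Vale.Agent.Lib.P328.Tables

open Finset

namespace Vale.Agent.Lib.P328

variable {m n : ℕ}

/-- Excess of a table: the sum over cells of the value minus one, truncated at zero. -/
def excess (X : Fin m → Fin n → ℕ) : ℕ := ∑ i, ∑ j, (X i j - 1)

section

variable {R : Fin m → ℕ} {C : Fin n → ℕ} {X : Fin m → Fin n → ℕ}

theorem card_pos_row (hX : IsTable R C X) (i : Fin m) :
    (univ.filter fun l => 1 ≤ X i l).card ≤ R i := by
  rw [← hX.1 i, Finset.card_filter]
  refine Finset.sum_le_sum fun l _ => ?_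
  split_ifs with h <;> omega

theorem card_pos_col (hX : IsTable R C X) (j : Fin n) :
    (univ.filter fun k => 1 ≤ X k j).card ≤ C j := by
  rw [← hX.2 j, Finset.card_filter]
  refine Finset.sum_le_sum fun l _ => ?_
  split_ifs with h <;> omega

/-- The units of a table outside the rows meeting column `j` and the columns meeting row `i`. -/
theorem elig_lower (hX : IsTable R C X) {a b : ℕ} (ha : ∀ i, R i ≤ a) (hb : ∀ j, C j ≤ b)
    (i : Fin m) (j : Fin n) (h2 : 2 ≤ X i j) :
    ∑ i, R i ≤ (∑ k, ∑ l, if (i ≠ k ∧ j ≠ l ∧ X i l = 0 ∧ X k j = 0) then X k l else 0)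
      + 2 * (a * b) := by
  classical
  have hpt : ∀ k l, X k l ≤ (if (i ≠ k ∧ j ≠ l ∧ X i l = 0 ∧ X k j = 0) then X k l else 0)
      + (if 1 ≤ X k j then X k l else 0) + (if 1 ≤ X i l then X k l else 0) := by
    intro k l
    by_cases h1 : (i ≠ k ∧ j ≠ l ∧ X i l = 0 ∧ X k j = 0)
    · rw [if_pos h1]; omega
    · by_cases h3 : 1 ≤ X k j
      · rw [if_pos h3]; omega
      · by_cases h4 : 1 ≤ X i l
        · rw [if_pos h4]; omega
        · exfalso
          apply h1
          have hk : i ≠ k := by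
            rintro rfl
            omega
          have hl : j ≠ l := by
            rintro rfl
            omega
          exact ⟨hk, hl, by omega, by omega⟩
  have h1 : ∑ k, ∑ l, (if 1 ≤ X k j then X k l else 0) ≤ a * b := by
    have : ∀ k, ∑ l, (if 1 ≤ X k j then X k l else 0) = if 1 ≤ X k j then R k else 0 := by
      intro k
      split_ifs with h
      · exact hX.1 k
      · simp
    simp_rw [this]
    calc ∑ k, (if 1 ≤ X k j then R k else 0)
        ≤ ∑ k, (if 1 ≤ X k j then a else 0) := by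
          refine Finset.sum_le_sum fun k _ => ?_
          split_ifs
          · exact ha k
          · exact le_rfl
      _ = (univ.filter fun k => 1 ≤ X k j).card * a := by
          rw [Finset.sum_ite, Finset.sum_const_zero, add_zero, Finset.sum_const, smul_eq_mul]
      _ ≤ b * a := Nat.mul_le_mul_right _ ((card_pos_col hX j).trans (hb j))
      _ = a * b := Nat.mul_comm _ _
  have h2' : ∑ k, ∑ l, (if 1 ≤ X i l then X k l else 0) ≤ a * b := by
    rw [Finset.sum_comm]
    have : ∀ l, ∑ k, (if 1 ≤ X i l then X k l else 0) = if 1 ≤ X i l then C l else 0 := by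
      intro l
      split_ifs with h
      · exact hX.2 l
      · simp
    simp_rw [this]
    calc ∑ l, (if 1 ≤ X i l then C l else 0)
        ≤ ∑ l, (if 1 ≤ X i l then b else 0) := by
          refine Finset.sum_le_sum fun k _ => ?_
          split_ifs
          · exact hb k
          · exact le_rfl
      _ = (univ.filter fun l => 1 ≤ X i l).card * b := by
          rw [Finset.sum_ite, Finset.sum_const_zero, add_zero, Finset.sum_const, smul_eq_mul]
      _ ≤ a * b := Nat.mul_le_mul_right _ ((card_pos_row hX i).trans (ha i))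
  calc ∑ i, R i = ∑ k, ∑ l, X k l := hX.sum_all.symm
    _ ≤ ∑ k, ∑ l, ((if (i ≠ k ∧ j ≠ l ∧ X i l = 0 ∧ X k j = 0) then X k l else 0)
      + (if 1 ≤ X k j then X k l else 0) + (if 1 ≤ X i l then X k l else 0)) :=
        Finset.sum_le_sum fun k _ => Finset.sum_le_sum fun l _ => hpt k l
    _ = (∑ k, ∑ l, if (i ≠ k ∧ j ≠ l ∧ X i l = 0 ∧ X k j = 0) then X k l else 0)
      + (∑ k, ∑ l, if 1 ≤ X k j then X k l else 0) + (∑ k, ∑ l, if 1 ≤ X i l then X k l else 0) := by
        simp only [Finset.sum_add_distrib]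
    _ ≤ _ := by omega

/-- For a table `Y` and a cell `(i,j)`, the weighted count of reverse moves is at most `2ab`. -/
theorem inner_upper {Y : Fin m → Fin n → ℕ} (hY : IsTable R C Y) {a b : ℕ} (ha : ∀ i, R i ≤ a)
    (hb : ∀ j, C j ≤ b) (i : Fin m) (j : Fin n) :
    (∑ k, ∑ l, if (i ≠ k ∧ j ≠ l ∧ Y i l = 1 ∧ Y k j = 1) then Y k l + 1 else 0) ≤ 2 * (a * b) := by
  classical
  have hpt : ∀ k l, (if (i ≠ k ∧ j ≠ l ∧ Y i l = 1 ∧ Y k j = 1) then Y k l + 1 else 0)
      ≤ (if 1 ≤ Y i l then (if 1 ≤ Y k j then 1 else 0) else 0)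
        + (if 1 ≤ Y i l then Y k l else 0) := by
    intro k l
    by_cases h : (i ≠ k ∧ j ≠ l ∧ Y i l = 1 ∧ Y k j = 1)
    · have h1 : 1 ≤ Y i l := by omega
      have h2 : 1 ≤ Y k j := by omega
      rw [if_pos h, if_pos h1, if_pos h2, if_pos h1]
      omega
    · rw [if_neg h]
      exact Nat.zero_le _
  have h1 : ∑ k, ∑ l, (if 1 ≤ Y i l then (if 1 ≤ Y k j then 1 else 0) else 0) ≤ a * b := by
    rw [Finset.sum_comm]
    have : ∀ l, ∑ k, (if 1 ≤ Y i l then (if 1 ≤ Y k j then 1 else 0) else 0)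
        = if 1 ≤ Y i l then (univ.filter fun k => 1 ≤ Y k j).card else 0 := by
      intro l
      split_ifs with h
      · rw [Finset.card_filter]
      · simp
    simp_rw [this]
    rw [Finset.sum_ite, Finset.sum_const_zero, add_zero, Finset.sum_const, smul_eq_mul]
    exact Nat.mul_le_mul ((card_pos_row hY i).trans (ha i)) ((card_pos_col hY j).trans (hb j))
  have h2 : ∑ k, ∑ l, (if 1 ≤ Y i l then Y k l else 0) ≤ a * b := by
    rw [Finset.sum_comm]
    have : ∀ l, ∑ k, (if 1 ≤ Y i l then Y k l else 0) = if 1 ≤ Y i l then C l else 0 := by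
      intro l
      split_ifs with h
      · exact hY.2 l
      · simp
    simp_rw [this]
    calc ∑ l, (if 1 ≤ Y i l then C l else 0)
        ≤ ∑ l, (if 1 ≤ Y i l then b else 0) := by
          refine Finset.sum_le_sum fun k _ => ?_
          split_ifs
          · exact hb k
          · exact le_rfl
      _ = (univ.filter fun l => 1 ≤ Y i l).card * b := by
          rw [Finset.sum_ite, Finset.sum_const_zero, add_zero, Finset.sum_const, smul_eq_mul]
      _ ≤ a * b := Nat.mul_le_mul_right _ ((card_pos_row hY i).trans (ha i))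
  calc _ ≤ ∑ k, ∑ l, ((if 1 ≤ Y i l then (if 1 ≤ Y k j then 1 else 0) else 0)
        + (if 1 ≤ Y i l then Y k l else 0)) :=
        Finset.sum_le_sum fun k _ => Finset.sum_le_sum fun l _ => hpt k l
    _ = (∑ k, ∑ l, (if 1 ≤ Y i l then (if 1 ≤ Y k j then 1 else 0) else 0))
        + ∑ k, ∑ l, (if 1 ≤ Y i l then Y k l else 0) := by
        simp only [Finset.sum_add_distrib]
    _ ≤ _ := by omega

/-- The switching sum through a fixed quadruple of indices. -/
theorem swap_sum_le (i k : Fin m) (j l : Fin n) (hik : i ≠ k) (hjl : j ≠ l) :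
    (∑ X ∈ tables R C, if (X i l = 0 ∧ X k j = 0) then (X i j - 1) * X k l else 0)
      ≤ ∑ Y ∈ tables R C, if (Y i l = 1 ∧ Y k j = 1) then Y i j * (Y k l + 1) else 0 := by
  classical
  set s := (tables R C).filter fun X => X i l = 0 ∧ X k j = 0 ∧ 2 ≤ X i j ∧ 1 ≤ X k l with hs
  set h : (Fin m → Fin n → ℕ) → ℕ :=
    fun Y => if (Y i l = 1 ∧ Y k j = 1) then Y i j * (Y k l + 1) else 0 with hh
  have e1 : (∑ X ∈ tables R C, if (X i l = 0 ∧ X k j = 0) then (X i j - 1) * X k l else 0)
      = ∑ X ∈ s, (X i j - 1) * X k l := by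
    rw [hs, Finset.sum_filter]
    refine Finset.sum_congr rfl fun X _ => ?_
    by_cases h1 : X i l = 0 ∧ X k j = 0
    · by_cases h2 : 2 ≤ X i j ∧ 1 ≤ X k l
      · rw [if_pos h1, if_pos ⟨h1.1, h1.2, h2.1, h2.2⟩]
      · rw [if_pos h1, if_neg (fun h3 => h2 ⟨h3.2.2.1, h3.2.2.2⟩)]
        have : X i j - 1 = 0 ∨ X k l = 0 := by omega
        rcases this with h3 | h3 <;> simp [h3]
    · rw [if_neg h1, if_neg (fun h3 => h1 ⟨h3.1, h3.2.1⟩)]
  have inj : Set.InjOn (fun X => swapMove X i j k l) (s : Set (Fin m → Fin n → ℕ)) := by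
    intro X hX X' hX' hXX
    have hX := Finset.mem_coe.1 hX
    have hX' := Finset.mem_coe.1 hX'
    simp only [hs, mem_filter] at hX hX'
    have h1 := swapMove_swapMove (X := X) hik hjl (by omega) hX.2.2.2.2
    have h2 := swapMove_swapMove (X := X') hik hjl (by omega) hX'.2.2.2.2
    rw [← h1, ← h2]
    simp only at hXX
    rw [hXX]
  have e2 : ∀ X ∈ s, (X i j - 1) * X k l = h (swapMove X i j k l) := by
    intro X hX
    simp only [hs, mem_filter] at hX
    simp only [hh]
    rw [swapMove_il hik hjl, swapMove_kj hik hjl, if_pos ⟨by omega, by omega⟩, swapMove_ij,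
      swapMove_kl hik]
    congr 1
    omega
  rw [e1, Finset.sum_congr rfl e2, ← Finset.sum_image (f := h) inj]
  refine Finset.sum_le_sum_of_subset ?_
  intro Y hY
  simp only [mem_image] at hY
  obtain ⟨X, hX, rfl⟩ := hY
  simp only [hs, mem_filter] at hX
  exact mem_tables.2 (swapMove_isTable (mem_tables.1 hX.1) hik hjl (by omega) hX.2.2.2.2)

/-- Weighted double count: bound on the total excess of all tables. -/
theorem excess_sum_le {a b : ℕ} (ha : ∀ i, R i ≤ a) (hb : ∀ j, C j ≤ b) :
    ((∑ i, R i) - 2 * (a * b)) * ∑ X ∈ tables R C, excess X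
      ≤ 2 * (a * b) * (∑ i, R i) * (tables R C).card := by
  classical
  set N := ∑ i, R i with hN
  -- the weighted count
  let S : (Fin m → Fin n → ℕ) → ℕ := fun X => ∑ i, ∑ j, ∑ k, ∑ l,
    if (i ≠ k ∧ j ≠ l ∧ X i l = 0 ∧ X k j = 0) then (X i j - 1) * X k l else 0
  have lower : ∀ X ∈ tables R C, (N - 2 * (a * b)) * excess X ≤ S X := by
    intro X hX
    have hT := mem_tables.1 hX
    unfold excess
    simp only [S]
    rw [Finset.mul_sum]
    refine Finset.sum_le_sum fun i _ => ?_
    rw [Finset.mul_sum]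
    refine Finset.sum_le_sum fun j _ => ?_
    have e : (∑ k, ∑ l, if (i ≠ k ∧ j ≠ l ∧ X i l = 0 ∧ X k j = 0) then (X i j - 1) * X k l else 0)
        = (X i j - 1) * ∑ k, ∑ l, if (i ≠ k ∧ j ≠ l ∧ X i l = 0 ∧ X k j = 0) then X k l else 0 := by
      rw [Finset.mul_sum]
      refine Finset.sum_congr rfl fun k _ => ?_
      rw [Finset.mul_sum]
      refine Finset.sum_congr rfl fun l _ => ?_
      split_ifs <;> simp
    rw [e, Nat.mul_comm]
    by_cases h2 : 2 ≤ X i j
    · refine Nat.mul_le_mul_left _ ?_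
      have := elig_lower hT ha hb i j h2
      omega
    · have : X i j - 1 = 0 := by omega
      simp [this]
  have upper : ∑ X ∈ tables R C, S X ≤ 2 * (a * b) * N * (tables R C).card := by
    have step1 : ∑ X ∈ tables R C, S X ≤ ∑ Y ∈ tables R C, ∑ i, ∑ j,
        Y i j * ∑ k, ∑ l, if (i ≠ k ∧ j ≠ l ∧ Y i l = 1 ∧ Y k j = 1) then Y k l + 1 else 0 := by
      simp only [S]
      have sw : ∀ F : (Fin m → Fin n → ℕ) → Fin m → Fin n → Fin m → Fin n → ℕ,
          ∑ X ∈ tables R C, ∑ i, ∑ j, ∑ k, ∑ l, F X i j k l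
            = ∑ i, ∑ j, ∑ k, ∑ l, ∑ X ∈ tables R C, F X i j k l := by
        intro F
        rw [Finset.sum_comm]
        refine Finset.sum_congr rfl fun i _ => ?_
        rw [Finset.sum_comm]
        refine Finset.sum_congr rfl fun j _ => ?_
        rw [Finset.sum_comm]
        refine Finset.sum_congr rfl fun k _ => ?_
        rw [Finset.sum_comm]
      have e2 : ∑ Y ∈ tables R C, ∑ i, ∑ j,
          Y i j * ∑ k, ∑ l, (if (i ≠ k ∧ j ≠ l ∧ Y i l = 1 ∧ Y k j = 1) then Y k l + 1 else 0)
          = ∑ Y ∈ tables R C, ∑ i, ∑ j, ∑ k, ∑ l,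
            (if (i ≠ k ∧ j ≠ l ∧ Y i l = 1 ∧ Y k j = 1) then Y i j * (Y k l + 1) else 0) := by
        refine Finset.sum_congr rfl fun Y _ => Finset.sum_congr rfl fun i _ =>
          Finset.sum_congr rfl fun j _ => ?_
        rw [Finset.mul_sum]
        refine Finset.sum_congr rfl fun k _ => ?_
        rw [Finset.mul_sum]
        refine Finset.sum_congr rfl fun l _ => ?_
        split_ifs <;> simp
      rw [e2, sw, sw]
      refine Finset.sum_le_sum fun i _ => Finset.sum_le_sum fun j _ =>
        Finset.sum_le_sum fun k _ => Finset.sum_le_sum fun l _ => ?_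
      by_cases hik : i = k
      · simp [hik]
      by_cases hjl : j = l
      · simp [hjl]
      have := swap_sum_le (R := R) (C := C) i k j l hik hjl
      calc _ = ∑ X ∈ tables R C, if (X i l = 0 ∧ X k j = 0) then (X i j - 1) * X k l else 0 := by
            refine Finset.sum_congr rfl fun X _ => ?_
            simp [hik, hjl]
        _ ≤ _ := this
        _ = _ := by
            refine Finset.sum_congr rfl fun X _ => ?_
            simp [hik, hjl]
    refine step1.trans ?_
    have step2 : ∀ Y ∈ tables R C, ∑ i, ∑ j,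
        Y i j * (∑ k, ∑ l, if (i ≠ k ∧ j ≠ l ∧ Y i l = 1 ∧ Y k j = 1) then Y k l + 1 else 0)
        ≤ 2 * (a * b) * N := by
      intro Y hY
      have hT := mem_tables.1 hY
      calc _ ≤ ∑ i, ∑ j, Y i j * (2 * (a * b)) :=
            Finset.sum_le_sum fun i _ => Finset.sum_le_sum fun j _ =>
              Nat.mul_le_mul_left _ (inner_upper hT ha hb i j)
        _ = (∑ i, ∑ j, Y i j) * (2 * (a * b)) := by
            simp only [Finset.sum_mul]
        _ = 2 * (a * b) * N := by
            rw [hT.sum_all, Nat.mul_comm]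
    calc _ ≤ ∑ _Y ∈ tables R C, 2 * (a * b) * N := Finset.sum_le_sum step2
      _ = _ := by
        rw [Finset.sum_const, smul_eq_mul, Nat.mul_comm]
  calc (N - 2 * (a * b)) * ∑ X ∈ tables R C, excess X
      = ∑ X ∈ tables R C, (N - 2 * (a * b)) * excess X := by rw [Finset.mul_sum]
    _ ≤ ∑ X ∈ tables R C, S X := Finset.sum_le_sum lower
    _ ≤ _ := upper

/-- Simple form of the excess bound when `8ab ≤ N`. -/
theorem excess_sum_le' {a b : ℕ} (ha : ∀ i, R i ≤ a) (hb : ∀ j, C j ≤ b)
    (hN : 0 < ∑ i, R i) (h8 : 8 * (a * b) ≤ ∑ i, R i) :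
    ∑ X ∈ tables R C, excess X ≤ 3 * (a * b) * (tables R C).card := by
  have h := excess_sum_le (R := R) (C := C) ha hb
  set N := ∑ i, R i with hNdef
  set E := ∑ X ∈ tables R C, excess X with hE
  set c := (tables R C).card with hc
  set t := a * b with ht
  have h1 : 3 * N ≤ 4 * (N - 2 * t) := by omega
  have h2 : 3 * N * E ≤ 8 * t * N * c := by
    calc 3 * N * E ≤ 4 * (N - 2 * t) * E := Nat.mul_le_mul_right _ h1
      _ = 4 * ((N - 2 * t) * E) := by ring
      _ ≤ 4 * (2 * t * N * c) := Nat.mul_le_mul_left _ h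
      _ = 8 * t * N * c := by ring
  have h3 : N * (3 * E) ≤ N * (8 * t * c) := by
    calc N * (3 * E) = 3 * N * E := by ring
      _ ≤ 8 * t * N * c := h2
      _ = N * (8 * t * c) := by ring
  have h4 : 3 * E ≤ 8 * t * c := Nat.le_of_mul_le_mul_left h3 hN
  have h5 : 8 * t * c ≤ 9 * t * c := by
    apply Nat.mul_le_mul_right
    omega
  have : 3 * E ≤ 3 * (3 * t * c) := by
    calc 3 * E ≤ 8 * t * c := h4
      _ ≤ 9 * t * c := h5
      _ = 3 * (3 * t * c) := by ring
  omega

end

end Vale.Agent.Lib.P328
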