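import Vale.Agent.Lib.P328.CellWeight

open Finset

namespace Vale.Agent.Lib.P328

variable {m n : ℕ}

/-- Candidate rows: vectors below `C` of total `r`. -/
def rowSet (r : ℕ) (C : Fin n → ℕ) : Finset (Fin n → ℕ) :=
  (Fintype.piFinset fun j => Finset.range (C j + 1)).filter fun x => ∑ j, x j = r

theorem mem_rowSet {r : ℕ} {C x : Fin n → ℕ} :
    x ∈ rowSet r C ↔ (∀ j, x j ≤ C j) ∧ ∑ j, x j = r := by
  simp [rowSet, Fintype.mem_piFinset]

/-- Decomposition of a table into its first row and the rest. -/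
theorem sum_tables_succ (R : Fin (m + 1) → ℕ) (C : Fin n → ℕ) (f : (Fin (m + 1) → Fin n → ℕ) → ℚ) :
    ∑ X ∈ tables R C, f X = ∑ x ∈ rowSet (R 0) C,
      ∑ Y ∈ tables (Fin.tail R) (fun j => C j - x j), f (Fin.cons x Y) := by
  classical
  rw [Finset.sum_sigma']
  refine Finset.sum_bij' (fun X _ => ⟨X 0, fun i => X i.succ⟩)
    (fun p _ => Fin.cons p.1 p.2) ?_ ?_ ?_ ?_ ?_
  · intro X hX
    have hT := mem_tables.1 hX
    simp only [mem_sigma, mem_rowSet, mem_tables]
    refine ⟨⟨fun j => hT.le_col 0 j, hT.1 0⟩, ?_, ?_⟩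
    · intro i
      exact hT.1 i.succ
    · intro j
      have := hT.2 j
      rw [Fin.sum_univ_succ] at this
      show ∑ i : Fin m, X i.succ j = C j - X 0 j
      omega
  · rintro ⟨x, Y⟩ hp
    simp only [mem_sigma, mem_rowSet, mem_tables] at hp
    obtain ⟨⟨hx1, hx2⟩, hY⟩ := hp
    refine mem_tables.2 ⟨?_, ?_⟩
    · intro i
      refine Fin.cases ?_ (fun i => ?_) i
      · simpa using hx2
      · simpa [Fin.tail] using hY.1 i
    · intro j
      rw [Fin.sum_univ_succ]
      simp only [Fin.cons_zero, Fin.cons_succ]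
      have h5 : ∑ i, Y i j = C j - x j := hY.2 j
      have := hx1 j
      omega
  · intro X _
    funext i
    refine Fin.cases ?_ (fun i => ?_) i <;> simp
  · rintro ⟨x, Y⟩ _
    simp
  · intro X _
    congr 1
    funext i
    refine Fin.cases ?_ (fun i => ?_) i <;> simp

/-- Decomposition of a candidate row into its first entry and the rest. -/
theorem sum_rowSet_succ (r : ℕ) (S : Fin (n + 1) → ℕ) (f : (Fin (n + 1) → ℕ) → ℕ) :
    ∑ x ∈ rowSet r S, f x = ∑ p ∈ (Finset.range (S 0 + 1)).filter (· ≤ r),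
      ∑ y ∈ rowSet (r - p) (Fin.tail S), f (Fin.cons p y) := by
  classical
  rw [Finset.sum_sigma']
  refine Finset.sum_bij' (fun x _ => ⟨x 0, fun j => x j.succ⟩)
    (fun p _ => Fin.cons p.1 p.2) ?_ ?_ ?_ ?_ ?_
  · intro x hx
    obtain ⟨h1, h2⟩ := mem_rowSet.1 hx
    rw [Fin.sum_univ_succ] at h2
    simp only [mem_sigma, mem_filter, mem_range, mem_rowSet]
    refine ⟨⟨Nat.lt_succ_of_le (h1 0), by omega⟩, fun j => h1 j.succ, by omega⟩
  · rintro ⟨p, y⟩ hp
    simp only [mem_sigma, mem_filter, mem_range, mem_rowSet] at hp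
    obtain ⟨⟨hp1, hp2⟩, hy1, hy2⟩ := hp
    refine mem_rowSet.2 ⟨?_, ?_⟩
    · intro j
      refine Fin.cases ?_ (fun j => ?_) j
      · simpa using Nat.le_of_lt_succ hp1
      · simpa [Fin.tail] using hy1 j
    · rw [Fin.sum_univ_succ]
      simp only [Fin.cons_zero, Fin.cons_succ]
      omega
  · intro x _
    funext j
    refine Fin.cases ?_ (fun j => ?_) j <;> simp
  · rintro ⟨p, y⟩ _
    simp
  · intro x _
    congr 1
    funext j
    refine Fin.cases ?_ (fun j => ?_) j <;> simp

/-- Vandermonde for several summands. -/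
theorem rowSet_choose (S : Fin n → ℕ) (r : ℕ) :
    ∑ x ∈ rowSet r S, ∏ j, (S j).choose (x j) = (∑ j, S j).choose r := by
  classical
  induction n generalizing r with
  | zero =>
    by_cases hr : r = 0
    · subst hr
      have : rowSet 0 S = {fun j => Fin.elim0 j} := by
        ext x
        simp only [mem_rowSet, mem_singleton]
        constructor
        · intro _
          funext j
          exact Fin.elim0 j
        · intro _
          exact ⟨fun j => Fin.elim0 j, by simp⟩
      rw [this]
      simp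
    · have : rowSet r S = ∅ := by
        ext x
        simp only [mem_rowSet, notMem_empty, iff_false]
        intro h
        apply hr
        simpa using h.2.symm
      rw [this]
      simp only [Finset.sum_empty, Finset.univ_eq_empty]
      exact (Nat.choose_eq_zero_of_lt (Nat.pos_of_ne_zero hr)).symm
  | succ n ih =>
    rw [sum_rowSet_succ, Fin.sum_univ_succ, Nat.add_choose_eq,
      Finset.Nat.sum_antidiagonal_eq_sum_range_succ_mk]
    have e1 : ∀ p, ∑ y ∈ rowSet (r - p) (Fin.tail S),
        ∏ j, (S j).choose ((Fin.cons p y : Fin (n + 1) → ℕ) j)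
        = (S 0).choose p * (∑ j : Fin n, S j.succ).choose (r - p) := by
      intro p
      have h := ih (Fin.tail S) (r - p)
      simp only [Fin.tail] at h
      rw [← h, Finset.mul_sum]
      refine Finset.sum_congr rfl fun y _ => ?_
      rw [Fin.prod_univ_succ]
      simp
    rw [Finset.sum_congr rfl fun p _ => e1 p]
    -- compare the two ranges
    have h1 : ∑ p ∈ (Finset.range (S 0 + 1)).filter (· ≤ r),
        (S 0).choose p * (∑ j : Fin n, S j.succ).choose (r - p)
        = ∑ p ∈ (Finset.range (r + 1)).filter (· ≤ S 0),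
        (S 0).choose p * (∑ j : Fin n, S j.succ).choose (r - p) := by
      refine Finset.sum_congr ?_ fun _ _ => rfl
      ext p
      simp only [mem_filter, mem_range]
      omega
    rw [h1, Finset.sum_filter]
    refine Finset.sum_congr rfl fun p _ => ?_
    split_ifs with h
    · rfl
    · rw [Nat.choose_eq_zero_of_lt (by omega)]
      simp

/-- Fisher-Yates count of tables: the sum of `∏ 1 / Z i j !` over all tables with margins
`R`, `C` equals `N! / (∏ R i ! ∏ C j !)`. -/
theorem fy_sum (R : Fin m → ℕ) (C : Fin n → ℕ) (h : ∑ i, R i = ∑ j, C j) :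
    ∑ Z ∈ tables R C, ∏ i, ∏ j, (((Z i j).factorial : ℚ))⁻¹
      = ((∑ i, R i).factorial : ℚ) / ((∏ i, ((R i).factorial : ℚ)) * ∏ j, ((C j).factorial : ℚ)) := by
  classical
  induction m generalizing C with
  | zero =>
    have hC : ∀ j, C j = 0 := by
      intro j
      have h0 : ∑ j, C j = 0 := by simpa using h.symm
      exact (Finset.sum_eq_zero_iff.1 h0) j (Finset.mem_univ j)
    have : tables R C = {fun i => Fin.elim0 i} := by
      ext X
      simp only [mem_tables, mem_singleton]
      constructor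
      · intro _
        funext i
        exact Fin.elim0 i
      · intro _
        refine ⟨fun i => Fin.elim0 i, fun j => ?_⟩
        simp [hC j]
    rw [this, Finset.sum_singleton]
    simp [hC]
  | succ m ih =>
    set M := ∑ i, R i with hM
    have hsplit : M = R 0 + ∑ i : Fin m, R i.succ := by
      rw [hM, Fin.sum_univ_succ]
    have hr : R 0 ≤ M := by omega
    have hfac : ∀ j, ((C j).factorial : ℚ) ≠ 0 := fun j => by positivity
    have key : ∀ x ∈ rowSet (R 0) C,
        ∑ Y ∈ tables (Fin.tail R) (fun j => C j - x j),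
          ∏ i, ∏ j, ((((Fin.cons x Y : Fin (m + 1) → Fin n → ℕ) i j).factorial : ℚ))⁻¹
        = (((M - R 0).factorial : ℚ) / ((∏ i : Fin m, ((R i.succ).factorial : ℚ))
            * ∏ j, ((C j).factorial : ℚ))) * ((∏ j, (C j).choose (x j) : ℕ) : ℚ) := by
      intro x hx
      obtain ⟨hx1, hx2⟩ := mem_rowSet.1 hx
      have hsum' : ∑ i, Fin.tail R i = ∑ j, (C j - x j) := by
        have h3 : ∑ j, (C j - x j) + ∑ j, x j = ∑ j, C j := by
          rw [← Finset.sum_add_distrib]
          exact Finset.sum_congr rfl fun j _ => Nat.sub_add_cancel (hx1 j)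
        have h4 : ∑ i, Fin.tail R i = ∑ i : Fin m, R i.succ := rfl
        omega
      have hih := ih (Fin.tail R) (fun j => C j - x j) hsum'
      have e : ∀ Y : Fin m → Fin n → ℕ,
          ∏ i, ∏ j, ((((Fin.cons x Y : Fin (m + 1) → Fin n → ℕ) i j).factorial : ℚ))⁻¹
          = (∏ j, (((x j).factorial : ℚ))⁻¹) * ∏ i, ∏ j, (((Y i j).factorial : ℚ))⁻¹ := by
        intro Y
        rw [Fin.prod_univ_succ]
        simp
      simp_rw [e]
      rw [← Finset.mul_sum, hih]
      have h4 : ∑ i, Fin.tail R i = M - R 0 := by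
        have : ∑ i, Fin.tail R i = ∑ i : Fin m, R i.succ := rfl
        omega
      rw [h4]
      have h5 : (∏ i, (((Fin.tail R i).factorial : ℕ) : ℚ)) = ∏ i : Fin m, ((R i.succ).factorial : ℚ) :=
        rfl
      rw [h5]
      have h6 : ((∏ j, (C j).choose (x j) : ℕ) : ℚ)
          = ∏ j, (((C j).factorial : ℚ) / (((x j).factorial : ℚ) * ((C j - x j).factorial : ℚ))) := by
        push_cast
        refine Finset.prod_congr rfl fun j _ => ?_
        exact Nat.cast_choose ℚ (hx1 j)
      rw [h6, Finset.prod_div_distrib, Finset.prod_mul_distrib, Finset.prod_inv_distrib]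
      have hA : (∏ i : Fin m, ((R i.succ).factorial : ℚ)) ≠ 0 :=
        Finset.prod_ne_zero_iff.2 fun i _ => by positivity
      have hB : (∏ j, ((C j).factorial : ℚ)) ≠ 0 :=
        Finset.prod_ne_zero_iff.2 fun j _ => hfac j
      have hD : (∏ j, ((x j).factorial : ℚ)) ≠ 0 :=
        Finset.prod_ne_zero_iff.2 fun j _ => by positivity
      have hE : (∏ j, ((C j - x j).factorial : ℚ)) ≠ 0 :=
        Finset.prod_ne_zero_iff.2 fun j _ => by positivity
      field_simp
    rw [sum_tables_succ, Finset.sum_congr rfl key, ← Finset.mul_sum]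
    have hv : ∑ x ∈ rowSet (R 0) C, ((∏ j, (C j).choose (x j) : ℕ) : ℚ) = ((M.choose (R 0) : ℕ) : ℚ) := by
      rw [← Nat.cast_sum, rowSet_choose, ← h]
    rw [hv, Nat.cast_choose ℚ hr, Fin.prod_univ_succ]
    have h0 : ((R 0).factorial : ℚ) ≠ 0 := by positivity
    have h1 : ((M - R 0).factorial : ℚ) ≠ 0 := by positivity
    have hA : (∏ i : Fin m, ((R i.succ).factorial : ℚ)) ≠ 0 :=
      Finset.prod_ne_zero_iff.2 fun i _ => by positivity
    have hB : (∏ j, ((C j).factorial : ℚ)) ≠ 0 :=
      Finset.prod_ne_zero_iff.2 fun j _ => hfac j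
    field_simp

end Vale.Agent.Lib.P328
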