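import Mathlib

open Finset

namespace Vale.Agent.Lib.P328

variable {m n : ℕ}

/-- `X` is a contingency table with row sums `R` and column sums `C`. -/
def IsTable (R : Fin m → ℕ) (C : Fin n → ℕ) (X : Fin m → Fin n → ℕ) : Prop :=
  (∀ i, ∑ j, X i j = R i) ∧ ∀ j, ∑ i, X i j = C j

instance (R : Fin m → ℕ) (C : Fin n → ℕ) : DecidablePred (IsTable R C) := fun _ =>
  inferInstanceAs (Decidable (_ ∧ _))

/-- The finite set of all contingency tables with row sums `R` and column sums `C`. -/
def tables (R : Fin m → ℕ) (C : Fin n → ℕ) : Finset (Fin m → Fin n → ℕ) :=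
  (Fintype.piFinset fun i => Fintype.piFinset fun _ => Finset.range (R i + 1)).filter (IsTable R C)

theorem IsTable.le_row {R : Fin m → ℕ} {C : Fin n → ℕ} {X : Fin m → Fin n → ℕ}
    (h : IsTable R C X) (i : Fin m) (j : Fin n) : X i j ≤ R i := by
  rw [← h.1 i]
  exact Finset.single_le_sum (f := fun q => X i q) (fun _ _ => Nat.zero_le _) (Finset.mem_univ j)

theorem IsTable.le_col {R : Fin m → ℕ} {C : Fin n → ℕ} {X : Fin m → Fin n → ℕ}
    (h : IsTable R C X) (i : Fin m) (j : Fin n) : X i j ≤ C j := by
  rw [← h.2 j]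
  exact Finset.single_le_sum (f := fun q => X q j) (fun _ _ => Nat.zero_le _) (Finset.mem_univ i)

theorem mem_tables {R : Fin m → ℕ} {C : Fin n → ℕ} {X : Fin m → Fin n → ℕ} :
    X ∈ tables R C ↔ IsTable R C X := by
  unfold tables
  simp only [mem_filter, Fintype.mem_piFinset, mem_range]
  constructor
  · exact fun h => h.2
  · intro h
    exact ⟨fun i j => Nat.lt_succ_of_le (h.le_row i j), h⟩

/-- Total of all entries of a table. -/
theorem IsTable.sum_all {R : Fin m → ℕ} {C : Fin n → ℕ} {X : Fin m → Fin n → ℕ}
    (h : IsTable R C X) : ∑ i, ∑ j, X i j = ∑ i, R i :=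
  Finset.sum_congr rfl fun i _ => h.1 i

theorem IsTable.sum_all' {R : Fin m → ℕ} {C : Fin n → ℕ} {X : Fin m → Fin n → ℕ}
    (h : IsTable R C X) : ∑ i, ∑ j, X i j = ∑ j, C j := by
  rw [Finset.sum_comm]
  exact Finset.sum_congr rfl fun j _ => h.2 j

/-- A shift of one unit between two coordinates does not change a sum. -/
theorem sum_eq_of_shift {κ : Type*} [Fintype κ] [DecidableEq κ] (f g : κ → ℕ) (j l : κ)
    (hj : g j + 1 = f j) (hl : g l = f l + 1) (hjl : j ≠ l)
    (h : ∀ q, q ≠ j → q ≠ l → g q = f q) : ∑ q, g q = ∑ q, f q := by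
  have key : ∑ q, (g q + if q = j then 1 else 0) = ∑ q, (f q + if q = l then 1 else 0) := by
    refine Finset.sum_congr rfl fun q _ => ?_
    by_cases hqj : q = j
    · subst hqj
      simp [hj, hjl]
    · by_cases hql : q = l
      · subst hql
        simp [hl, hqj]
      · simp [h q hqj hql, hqj, hql]
  simpa [Finset.sum_add_distrib] using key

/-- Elementary switching: one unit leaves the cells `(i,j)` and `(k,l)` and enters the cells
`(i,l)` and `(k,j)`. -/
def swapMove (X : Fin m → Fin n → ℕ) (i : Fin m) (j : Fin n) (k : Fin m) (l : Fin n) :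
    Fin m → Fin n → ℕ := fun p q =>
  if p = i ∧ q = j then X p q - 1
  else if p = k ∧ q = l then X p q - 1
  else if p = i ∧ q = l then X p q + 1
  else if p = k ∧ q = j then X p q + 1
  else X p q

section swap

variable {X : Fin m → Fin n → ℕ} {i k : Fin m} {j l : Fin n}

theorem swapMove_ij : swapMove X i j k l i j = X i j - 1 := by
  simp [swapMove]

theorem swapMove_kl (hik : i ≠ k) : swapMove X i j k l k l = X k l - 1 := by
  simp [swapMove, hik.symm]

theorem swapMove_il (hik : i ≠ k) (hjl : j ≠ l) : swapMove X i j k l i l = X i l + 1 := by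
  simp [swapMove, hjl.symm, hik]

theorem swapMove_kj (hik : i ≠ k) (hjl : j ≠ l) : swapMove X i j k l k j = X k j + 1 := by
  simp [swapMove, hik.symm, hjl]

theorem swapMove_other {p : Fin m} {q : Fin n} (h1 : ¬ (p = i ∧ q = j)) (h2 : ¬ (p = k ∧ q = l))
    (h3 : ¬ (p = i ∧ q = l)) (h4 : ¬ (p = k ∧ q = j)) : swapMove X i j k l p q = X p q := by
  simp [swapMove, h1, h2, h3, h4]

theorem swapMove_isTable {R : Fin m → ℕ} {C : Fin n → ℕ} (hX : IsTable R C X) (hik : i ≠ k)
    (hjl : j ≠ l) (h1 : 1 ≤ X i j) (h2 : 1 ≤ X k l) : IsTable R C (swapMove X i j k l) := by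
  constructor
  · intro p
    rw [← hX.1 p]
    by_cases hp : p = i
    · subst hp
      refine sum_eq_of_shift _ _ j l ?_ ?_ hjl ?_
      · rw [swapMove_ij]; omega
      · exact swapMove_il hik hjl
      · intro q hq1 hq2
        exact swapMove_other (by tauto) (by tauto) (by tauto) (by tauto)
    · by_cases hp' : p = k
      · subst hp'
        refine sum_eq_of_shift _ _ l j ?_ ?_ hjl.symm ?_
        · rw [swapMove_kl hik]; omega
        · exact swapMove_kj hik hjl
        · intro q hq1 hq2
          exact swapMove_other (by tauto) (by tauto) (by tauto) (by tauto)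
      · refine Finset.sum_congr rfl fun q _ => ?_
        exact swapMove_other (by tauto) (by tauto) (by tauto) (by tauto)
  · intro q
    rw [← hX.2 q]
    by_cases hq : q = j
    · subst hq
      refine sum_eq_of_shift (fun p => X p q) (fun p => swapMove X i q k l p q) i k ?_ ?_ hik ?_
      · simp only [swapMove_ij]; omega
      · exact swapMove_kj hik hjl
      · intro p hp1 hp2
        exact swapMove_other (by tauto) (by tauto) (by tauto) (by tauto)
    · by_cases hq' : q = l
      · subst hq'
        refine sum_eq_of_shift (fun p => X p q) (fun p => swapMove X i j k q p q) k i ?_ ?_ hik.symm ?_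
        · simp only [swapMove_kl hik]; omega
        · exact swapMove_il hik hjl
        · intro p hp1 hp2
          exact swapMove_other (by tauto) (by tauto) (by tauto) (by tauto)
      · refine Finset.sum_congr rfl fun p _ => ?_
        exact swapMove_other (by tauto) (by tauto) (by tauto) (by tauto)

/-- `swapMove` undone. -/
theorem swapMove_swapMove (hik : i ≠ k) (hjl : j ≠ l) (h1 : 1 ≤ X i j) (h2 : 1 ≤ X k l) :
    swapMove (swapMove X i j k l) i l k j = X := by
  funext p q
  by_cases c1 : p = i ∧ q = j
  · obtain ⟨rfl, rfl⟩ := c1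
    have : swapMove (swapMove X p q k l) p l k q p q = swapMove X p q k l p q + 1 := by
      simp [swapMove, hjl, hik]
    rw [this, swapMove_ij]; omega
  by_cases c2 : p = k ∧ q = l
  · obtain ⟨rfl, rfl⟩ := c2
    have : swapMove (swapMove X i j p q) i q p j p q = swapMove X i j p q p q + 1 := by
      simp [swapMove, hjl.symm, hik.symm]
    rw [this, swapMove_kl hik]; omega
  by_cases c3 : p = i ∧ q = l
  · obtain ⟨rfl, rfl⟩ := c3
    have : swapMove (swapMove X p j k q) p q k j p q = swapMove X p j k q p q - 1 := by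
      simp [swapMove]
    rw [this, swapMove_il hik hjl]; omega
  by_cases c4 : p = k ∧ q = j
  · obtain ⟨rfl, rfl⟩ := c4
    have : swapMove (swapMove X i q p l) i l p q p q = swapMove X i q p l p q - 1 := by
      simp [swapMove, hik.symm]
    rw [this, swapMove_kj hik hjl]; omega
  have e1 : swapMove (swapMove X i j k l) i l k j p q = swapMove X i j k l p q :=
    swapMove_other (by tauto) (by tauto) (by tauto) (by tauto)
  rw [e1]
  exact swapMove_other c1 c2 c3 c4

end swap

end Vale.Agent.Lib.P328
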