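import Vale.Agent.Lib.P328.Excess

open Finset

namespace Vale.Agent.Lib.P328

variable {m n : ℕ}

/-- Tables with value at least `t` in the cell `(i,j)`. -/
def above (R : Fin m → ℕ) (C : Fin n → ℕ) (i : Fin m) (j : Fin n) (t : ℕ) :
    Finset (Fin m → Fin n → ℕ) :=
  (tables R C).filter fun X => t ≤ X i j

/-- Subtract `s` at the cell `(i,j)`. -/
def subCell (X : Fin m → Fin n → ℕ) (i : Fin m) (j : Fin n) (s : ℕ) : Fin m → Fin n → ℕ :=
  fun p q => if p = i ∧ q = j then X p q - s else X p q

/-- Add `s` at the cell `(i,j)`. -/
def addCell (X : Fin m → Fin n → ℕ) (i : Fin m) (j : Fin n) (s : ℕ) : Fin m → Fin n → ℕ :=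
  fun p q => if p = i ∧ q = j then X p q + s else X p q

section

variable {R : Fin m → ℕ} {C : Fin n → ℕ} {X : Fin m → Fin n → ℕ} {i : Fin m} {j : Fin n} {s : ℕ}

theorem sum_add_single {κ : Type*} [Fintype κ] [DecidableEq κ] (f g : κ → ℕ) (j : κ) (s : ℕ)
    (hj : f j = g j + s) (h : ∀ q, q ≠ j → f q = g q) : ∑ q, f q = ∑ q, g q + s := by
  have key : ∑ q, f q = ∑ q, (g q + if q = j then s else 0) := by
    refine Finset.sum_congr rfl fun q _ => ?_
    by_cases hq : q = j
    · subst hq; simp [hj]
    · simp [h q hq, hq]
  rw [key, Finset.sum_add_distrib]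
  simp

theorem subCell_isTable (hX : IsTable R C X) (hs : s ≤ X i j) :
    IsTable (Function.update R i (R i - s)) (Function.update C j (C j - s)) (subCell X i j s) := by
  constructor
  · intro p
    by_cases hp : p = i
    · subst hp
      simp only [Function.update_self]
      have := sum_add_single (fun q => X p q) (fun q => subCell X p j s p q) j s
        (by simp [subCell]; omega) (by intro q hq; simp [subCell, hq])
      rw [hX.1 p] at this
      omega
    · rw [Function.update_of_ne hp, ← hX.1 p]
      refine Finset.sum_congr rfl fun q _ => ?_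
      simp [subCell, hp]
  · intro q
    by_cases hq : q = j
    · subst hq
      simp only [Function.update_self]
      have := sum_add_single (fun p => X p q) (fun p => subCell X i q s p q) i s
        (by simp [subCell]; omega) (by intro p hp; simp [subCell, hp])
      rw [hX.2 q] at this
      omega
    · rw [Function.update_of_ne hq, ← hX.2 q]
      refine Finset.sum_congr rfl fun p _ => ?_
      simp [subCell, hq]

theorem addCell_isTable {Y : Fin m → Fin n → ℕ}
    (hY : IsTable (Function.update R i (R i - s)) (Function.update C j (C j - s)) Y)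
    (hR : s ≤ R i) (hC : s ≤ C j) : IsTable R C (addCell Y i j s) := by
  constructor
  · intro p
    by_cases hp : p = i
    · subst hp
      have := sum_add_single (fun q => addCell Y p j s p q) (fun q => Y p q) j s
        (by simp [addCell]) (by intro q hq; simp [addCell, hq])
      rw [hY.1 p] at this
      simp only [Function.update_self] at this
      omega
    · have := hY.1 p
      rw [Function.update_of_ne hp] at this
      rw [← this]
      refine Finset.sum_congr rfl fun q _ => ?_
      simp [addCell, hp]
  · intro q
    by_cases hq : q = j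
    · subst hq
      have := sum_add_single (fun p => addCell Y i q s p q) (fun p => Y p q) i s
        (by simp [addCell]) (by intro p hp; simp [addCell, hp])
      rw [hY.2 q] at this
      simp only [Function.update_self] at this
      omega
    · have := hY.2 q
      rw [Function.update_of_ne hq] at this
      rw [← this]
      refine Finset.sum_congr rfl fun p _ => ?_
      simp [addCell, hq]

theorem subCell_inj {X X' : Fin m → Fin n → ℕ} (h : subCell X i j s = subCell X' i j s)
    (h1 : s ≤ X i j) (h2 : s ≤ X' i j) : X = X' := by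
  funext p q
  have := congrFun (congrFun h p) q
  by_cases hc : p = i ∧ q = j
  · obtain ⟨rfl, rfl⟩ := hc
    simp only [subCell, and_self, if_true] at this
    omega
  · simpa [subCell, hc] using this

theorem addCell_inj {X X' : Fin m → Fin n → ℕ} (h : addCell X i j s = addCell X' i j s) :
    X = X' := by
  funext p q
  have := congrFun (congrFun h p) q
  by_cases hc : p = i ∧ q = j
  · obtain ⟨rfl, rfl⟩ := hc
    simp only [addCell, and_self, if_true] at this
    omega
  · simpa [addCell, hc] using this

/-- Number of support cells of `X` outside row `i` and column `j`. -/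
def outSupp (X : Fin m → Fin n → ℕ) (i : Fin m) (j : Fin n) : ℕ :=
  ∑ k, ∑ l, if (k ≠ i ∧ l ≠ j ∧ 1 ≤ X k l) then (1 : ℕ) else 0

/-- Excess of `X` outside row `i` and column `j`. -/
def outExcess (X : Fin m → Fin n → ℕ) (i : Fin m) (j : Fin n) : ℕ :=
  ∑ k, ∑ l, if (k ≠ i ∧ l ≠ j) then X k l - 1 else 0

theorem total_le (hX : IsTable R C X) (i : Fin m) (j : Fin n) :
    ∑ p, R p ≤ outSupp X i j + outExcess X i j + R i + C j := by
  classical
  have hpt : ∀ k l, X k l ≤ (if (k ≠ i ∧ l ≠ j ∧ 1 ≤ X k l) then 1 else 0)
      + (if (k ≠ i ∧ l ≠ j) then X k l - 1 else 0) + (if k = i then X k l else 0)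
      + (if l = j then X k l else 0) := by
    intro k l
    by_cases h1 : k = i
    · simp [h1]
    · by_cases h2 : l = j
      · simp [h2]
      · by_cases h3 : 1 ≤ X k l
        · rw [if_pos ⟨h1, h2, h3⟩, if_pos ⟨h1, h2⟩, if_neg h1, if_neg h2]; omega
        · rw [if_neg (fun h => h3 h.2.2), if_pos ⟨h1, h2⟩, if_neg h1, if_neg h2]; omega
  have e1 : ∑ k, ∑ l, (if k = i then X k l else 0) = R i := by
    have : ∀ k, ∑ l, (if k = i then X k l else 0) = if k = i then R i else 0 := by
      intro k
      split_ifs with h
      · subst h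
        exact hX.1 k
      · simp
    simp_rw [this]
    simp
  have e2 : ∑ k, ∑ l, (if l = j then X k l else 0) = C j := by
    rw [← hX.2 j]
    refine Finset.sum_congr rfl fun k _ => ?_
    simp
  calc ∑ p, R p = ∑ k, ∑ l, X k l := hX.sum_all.symm
    _ ≤ ∑ k, ∑ l, ((if (k ≠ i ∧ l ≠ j ∧ 1 ≤ X k l) then 1 else 0)
      + (if (k ≠ i ∧ l ≠ j) then X k l - 1 else 0) + (if k = i then X k l else 0)
      + (if l = j then X k l else 0)) :=
        Finset.sum_le_sum fun k _ => Finset.sum_le_sum fun l _ => hpt k l
    _ = outSupp X i j + outExcess X i j + (∑ k, ∑ l, if k = i then X k l else 0)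
        + ∑ k, ∑ l, if l = j then X k l else 0 := by
        simp only [outSupp, outExcess, Finset.sum_add_distrib]
    _ = _ := by rw [e1, e2]

theorem outExcess_le (X : Fin m → Fin n → ℕ) (i : Fin m) (j : Fin n) (s : ℕ) :
    outExcess X i j ≤ excess (subCell X i j s) := by
  unfold outExcess excess
  refine Finset.sum_le_sum fun k _ => Finset.sum_le_sum fun l _ => ?_
  by_cases h : k ≠ i ∧ l ≠ j
  · rw [if_pos h]
    have : ¬ (k = i ∧ l = j) := by tauto
    simp [subCell, this]
  · rw [if_neg h]
    exact Nat.zero_le _

/-- The sum of the support sizes outside row `i` and column `j` over the tables with value at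
least `t+1` in the cell `(i,j)` is at most `R i * C j` times the number of tables with value at
least `t`. -/
theorem outSupp_sum_le (t : ℕ) :
    ∑ X ∈ above R C i j (t + 1), outSupp X i j ≤ R i * C j * (above R C i j t).card := by
  classical
  have step : ∀ k l, k ≠ i → l ≠ j →
      ((above R C i j (t + 1)).filter fun X => 1 ≤ X k l).card
        ≤ ((above R C i j t).filter fun Y => 1 ≤ Y i l ∧ 1 ≤ Y k j).card := by
    intro k l hk hl
    have hik : i ≠ k := hk.symm
    have hjl : j ≠ l := hl.symm
    refine Finset.card_le_card_of_injOn (fun X => swapMove X i j k l) ?_ ?_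
    · intro X hX
      have hX := Finset.mem_coe.1 hX
      simp only [above, mem_filter] at hX
      obtain ⟨⟨h1, h2⟩, h3⟩ := hX
      refine Finset.mem_coe.2 ?_
      simp only [above, mem_filter]
      refine ⟨⟨mem_tables.2 (swapMove_isTable (mem_tables.1 h1) hik hjl (by omega) h3), ?_⟩, ?_, ?_⟩
      · simp only [swapMove_ij]; omega
      · simp only [swapMove_il hik hjl]; omega
      · simp only [swapMove_kj hik hjl]; omega
    · intro X hX X' hX' hXX
      have hX := Finset.mem_coe.1 hX
      have hX' := Finset.mem_coe.1 hX'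
      simp only [above, mem_filter] at hX hX'
      have h1 := swapMove_swapMove (X := X) hik hjl (by omega) hX.2
      have h2 := swapMove_swapMove (X := X') hik hjl (by omega) hX'.2
      rw [← h1, ← h2]
      simp only at hXX
      rw [hXX]
  calc ∑ X ∈ above R C i j (t + 1), outSupp X i j
      = ∑ k, ∑ l, ∑ X ∈ above R C i j (t + 1),
          (if (k ≠ i ∧ l ≠ j ∧ 1 ≤ X k l) then (1 : ℕ) else 0) := by
        unfold outSupp
        rw [Finset.sum_comm]
        refine Finset.sum_congr rfl fun k _ => ?_
        rw [Finset.sum_comm]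
    _ ≤ ∑ k, ∑ l, ∑ Y ∈ above R C i j t,
          (if (1 ≤ Y i l ∧ 1 ≤ Y k j) then (1 : ℕ) else 0) := by
        refine Finset.sum_le_sum fun k _ => Finset.sum_le_sum fun l _ => ?_
        by_cases hk : k = i
        · simp [hk]
        by_cases hl : l = j
        · simp [hl]
        have := step k l hk hl
        rw [Finset.card_filter, Finset.card_filter] at this
        simpa [hk, hl] using this
    _ = ∑ Y ∈ above R C i j t, ∑ k, ∑ l, (if (1 ≤ Y i l ∧ 1 ≤ Y k j) then (1 : ℕ) else 0) := by
        have : ∀ k, ∑ l, ∑ Y ∈ above R C i j t, (if (1 ≤ Y i l ∧ 1 ≤ Y k j) then (1 : ℕ) else 0)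
            = ∑ Y ∈ above R C i j t, ∑ l, (if (1 ≤ Y i l ∧ 1 ≤ Y k j) then (1 : ℕ) else 0) :=
          fun k => Finset.sum_comm
        simp_rw [this]
        exact Finset.sum_comm
    _ ≤ ∑ _Y ∈ above R C i j t, R i * C j := by
        refine Finset.sum_le_sum fun Y hY => ?_
        simp only [above, mem_filter] at hY
        have hT := mem_tables.1 hY.1
        have : ∑ k, ∑ l, (if (1 ≤ Y i l ∧ 1 ≤ Y k j) then (1 : ℕ) else 0)
            = (univ.filter fun l => 1 ≤ Y i l).card * (univ.filter fun k => 1 ≤ Y k j).card := by
          rw [Finset.card_filter, Finset.card_filter, Finset.sum_mul_sum, Finset.sum_comm]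
          refine Finset.sum_congr rfl fun k _ => Finset.sum_congr rfl fun l _ => ?_
          split_ifs <;> simp_all
        rw [this]
        exact Nat.mul_le_mul (card_pos_row hT i) (card_pos_col hT j)
    _ = _ := by
        rw [Finset.sum_const, smul_eq_mul, Nat.mul_comm]

/-- One step of the tail bound. -/
theorem tail_step {a b : ℕ} (ha : ∀ p, R p ≤ a) (hb : ∀ q, C q ≤ b)
    (h16 : 16 * (a * b) ≤ ∑ p, R p) (t : ℕ) :
    (∑ p, R p) * (above R C i j (t + 1)).card ≤ 2 * (R i * C j) * (above R C i j t).card := by
  classical
  by_cases hemp : above R C i j (t + 1) = ∅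
  · simp [hemp]
  obtain ⟨X₀, hX₀⟩ := Finset.nonempty_iff_ne_empty.2 hemp
  simp only [above, mem_filter] at hX₀
  have hT₀ := mem_tables.1 hX₀.1
  have hsR : t + 1 ≤ R i := hX₀.2.trans (hT₀.le_row i j)
  have hsC : t + 1 ≤ C j := hX₀.2.trans (hT₀.le_col i j)
  have hsa : t + 1 ≤ a := hsR.trans (ha i)
  have hsb : t + 1 ≤ b := hsC.trans (hb j)
  have hb1 : 1 ≤ b := by omega
  have ha1 : 1 ≤ a := by omega
  have hab : a ≤ a * b := Nat.le_mul_of_pos_right a hb1
  have hab' : b ≤ a * b := Nat.le_mul_of_pos_left b ha1
  have hab1 : 1 ≤ a * b := Nat.mul_pos ha1 hb1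
  have hsum1 : a + b ≤ a * b + 1 := by
    obtain ⟨a', rfl⟩ := Nat.exists_eq_succ_of_ne_zero (by omega : a ≠ 0)
    obtain ⟨b', rfl⟩ := Nat.exists_eq_succ_of_ne_zero (by omega : b ≠ 0)
    simp only [Nat.succ_eq_add_one]
    nlinarith
  set s := t + 1 with hs
  set R' := Function.update R i (R i - s) with hR'
  set C' := Function.update C j (C j - s) with hC'
  have hsumR' : ∑ p, R p = ∑ p, R' p + s := by
    refine sum_add_single R R' i s ?_ ?_
    · simp only [hR', Function.update_self]; omega
    · intro q hq
      simp only [hR', Function.update_of_ne hq]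
  have ha' : ∀ p, R' p ≤ a := by
    intro p
    by_cases hp : p = i
    · subst hp
      simp only [hR', Function.update_self]
      exact (Nat.sub_le _ _).trans (ha p)
    · simp only [hR', Function.update_of_ne hp]
      exact ha p
  have hb' : ∀ q, C' q ≤ b := by
    intro q
    by_cases hq : q = j
    · subst hq
      simp only [hC', Function.update_self]
      exact (Nat.sub_le _ _).trans (hb q)
    · simp only [hC', Function.update_of_ne hq]
      exact hb q
  have hN' : 0 < ∑ p, R' p := by omega
  have h8' : 8 * (a * b) ≤ ∑ p, R' p := by omega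
  have hex := excess_sum_le' (R := R') (C := C') ha' hb' hN' h8'
  -- comparison of `above` with the reduced tables
  have hc1 : (tables R' C').card ≤ (above R C i j s).card := by
    refine Finset.card_le_card_of_injOn (fun Y => addCell Y i j s) ?_ ?_
    · intro Y hY
      have hY := mem_tables.1 (Finset.mem_coe.1 hY)
      refine Finset.mem_coe.2 ?_
      simp only [above, mem_filter]
      refine ⟨mem_tables.2 (addCell_isTable hY hsR hsC), ?_⟩
      simp [addCell]
    · intro Y _ Y' _ h
      exact addCell_inj h
  have hc2 : ∑ X ∈ above R C i j s, outExcess X i j ≤ ∑ Y ∈ tables R' C', excess Y := by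
    have inj : Set.InjOn (fun X => subCell X i j s) (above R C i j s : Set (Fin m → Fin n → ℕ)) := by
      intro X hX X' hX' h
      have hX := Finset.mem_coe.1 hX
      have hX' := Finset.mem_coe.1 hX'
      simp only [above, mem_filter] at hX hX'
      exact subCell_inj h hX.2 hX'.2
    calc ∑ X ∈ above R C i j s, outExcess X i j
        ≤ ∑ X ∈ above R C i j s, excess (subCell X i j s) :=
          Finset.sum_le_sum fun X _ => outExcess_le X i j s
      _ = ∑ Y ∈ (above R C i j s).image (fun X => subCell X i j s), excess Y :=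
          (Finset.sum_image inj).symm
      _ ≤ _ := by
          refine Finset.sum_le_sum_of_subset ?_
          intro Y hY
          simp only [mem_image] at hY
          obtain ⟨X, hX, rfl⟩ := hY
          simp only [above, mem_filter] at hX
          exact mem_tables.2 (subCell_isTable (mem_tables.1 hX.1) hX.2)
  have hmain : (∑ p, R p) * (above R C i j s).card
      ≤ R i * C j * (above R C i j t).card + 3 * (a * b) * (above R C i j s).card
        + (a * b + 1) * (above R C i j s).card := by
    calc (∑ p, R p) * (above R C i j s).card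
        = ∑ _X ∈ above R C i j s, ∑ p, R p := by
          rw [Finset.sum_const, smul_eq_mul, Nat.mul_comm]
      _ ≤ ∑ X ∈ above R C i j s, (outSupp X i j + outExcess X i j + R i + C j) := by
          refine Finset.sum_le_sum fun X hX => ?_
          simp only [above, mem_filter] at hX
          exact total_le (mem_tables.1 hX.1) i j
      _ = (∑ X ∈ above R C i j s, outSupp X i j) + (∑ X ∈ above R C i j s, outExcess X i j)
          + (R i + C j) * (above R C i j s).card := by
          simp only [Finset.sum_add_distrib, Finset.sum_const, smul_eq_mul]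
          ring
      _ ≤ _ := by
          have h1 : ∑ X ∈ above R C i j s, outSupp X i j ≤ R i * C j * (above R C i j t).card :=
            outSupp_sum_le t
          have h2 : ∑ X ∈ above R C i j s, outExcess X i j
              ≤ 3 * (a * b) * (above R C i j s).card :=
            hc2.trans (hex.trans (Nat.mul_le_mul_left _ hc1))
          have h3 : (R i + C j) * (above R C i j s).card
              ≤ (a * b + 1) * (above R C i j s).card := by
            apply Nat.mul_le_mul_right
            have := ha i
            have := hb j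
            omega
          omega
  have h2c : 2 * (4 * (a * b) + 1) * (above R C i j s).card
      ≤ (∑ p, R p) * (above R C i j s).card := by
    apply Nat.mul_le_mul_right
    omega
  have e1 : 3 * (a * b) * (above R C i j s).card + (a * b + 1) * (above R C i j s).card
      = (4 * (a * b) + 1) * (above R C i j s).card := by ring
  have e2 : 2 * (4 * (a * b) + 1) * (above R C i j s).card
      = 2 * ((4 * (a * b) + 1) * (above R C i j s).card) := by ring
  have e3 : 2 * (R i * C j) * (above R C i j t).card
      = 2 * (R i * C j * (above R C i j t).card) := by ring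
  rw [e3]
  omega

/-- Tail bound for a cell of a uniform table. -/
theorem tail_bound {a b : ℕ} (ha : ∀ p, R p ≤ a) (hb : ∀ q, C q ≤ b)
    (h16 : 16 * (a * b) ≤ ∑ p, R p) (t : ℕ) :
    (∑ p, R p) ^ t * (above R C i j t).card ≤ (2 * (R i * C j)) ^ t * (tables R C).card := by
  induction t with
  | zero =>
    simp only [pow_zero, one_mul]
    exact Finset.card_filter_le _ _
  | succ t ih =>
    calc (∑ p, R p) ^ (t + 1) * (above R C i j (t + 1)).card
        = (∑ p, R p) ^ t * ((∑ p, R p) * (above R C i j (t + 1)).card) := by ring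
      _ ≤ (∑ p, R p) ^ t * (2 * (R i * C j) * (above R C i j t).card) :=
          Nat.mul_le_mul_left _ (tail_step ha hb h16 t)
      _ = 2 * (R i * C j) * ((∑ p, R p) ^ t * (above R C i j t).card) := by ring
      _ ≤ 2 * (R i * C j) * ((2 * (R i * C j)) ^ t * (tables R C).card) :=
          Nat.mul_le_mul_left _ ih
      _ = _ := by ring

/-- Tables with all entries at most `D`. -/
def goodTables (R : Fin m → ℕ) (C : Fin n → ℕ) (D : ℕ) : Finset (Fin m → Fin n → ℕ) :=
  (tables R C).filter fun X => ∀ i j, X i j ≤ D

/-- Union bound over the cells. -/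
theorem card_le_good_add (D : ℕ) :
    (tables R C).card ≤ (goodTables R C D).card
      + ∑ i, ∑ j, (above R C i j (D + 1)).card := by
  classical
  have hsub : tables R C ⊆ goodTables R C D ∪
      (univ : Finset (Fin m)).biUnion fun i => (univ : Finset (Fin n)).biUnion fun j =>
        above R C i j (D + 1) := by
    intro X hX
    by_cases h : ∀ i j, X i j ≤ D
    · exact Finset.mem_union_left _ (by simp only [goodTables, mem_filter]; exact ⟨hX, h⟩)
    · simp only [not_forall, not_le] at h
      obtain ⟨i, j, hij⟩ := h
      refine Finset.mem_union_right _ ?_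
      simp only [mem_biUnion, mem_univ, true_and, above, mem_filter]
      exact ⟨i, j, hX, hij⟩
  calc (tables R C).card ≤ _ := Finset.card_le_card hsub
    _ ≤ _ := Finset.card_union_le _ _
    _ ≤ _ := by
      refine Nat.add_le_add_left ?_ _
      refine Finset.card_biUnion_le.trans ?_
      exact Finset.sum_le_sum fun i _ => Finset.card_biUnion_le

/-- Most tables have all entries at most `D`. -/
theorem good_bound {a b : ℕ} (ha : ∀ p, R p ≤ a) (hb : ∀ q, C q ≤ b)
    (hsum : ∑ p, R p = ∑ q, C q) (h16 : 16 * (a * b) ≤ ∑ p, R p) (D : ℕ) :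
    (∑ p, R p) ^ (D + 1) * (tables R C).card
      ≤ (∑ p, R p) ^ (D + 1) * (goodTables R C D).card
        + 2 ^ (D + 1) * (a * b) ^ D * (∑ p, R p) ^ 2 * (tables R C).card := by
  classical
  set N := ∑ p, R p with hN
  have h1 : ∑ i, R i ^ (D + 1) ≤ a ^ D * N := by
    rw [hN, Finset.mul_sum]
    refine Finset.sum_le_sum fun i _ => ?_
    rw [pow_succ]
    exact Nat.mul_le_mul_right _ (Nat.pow_le_pow_left (ha i) D)
  have h2 : ∑ j, C j ^ (D + 1) ≤ b ^ D * N := by
    rw [hsum, Finset.mul_sum]
    refine Finset.sum_le_sum fun i _ => ?_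
    rw [pow_succ]
    exact Nat.mul_le_mul_right _ (Nat.pow_le_pow_left (hb i) D)
  have h3 : N ^ (D + 1) * ∑ i, ∑ j, (above R C i j (D + 1)).card
      ≤ 2 ^ (D + 1) * (a * b) ^ D * N ^ 2 * (tables R C).card := by
    calc N ^ (D + 1) * ∑ i, ∑ j, (above R C i j (D + 1)).card
        = ∑ i, ∑ j, N ^ (D + 1) * (above R C i j (D + 1)).card := by
          simp only [Finset.mul_sum]
      _ ≤ ∑ i, ∑ j, (2 * (R i * C j)) ^ (D + 1) * (tables R C).card :=
          Finset.sum_le_sum fun i _ => Finset.sum_le_sum fun j _ => tail_bound ha hb h16 (D + 1)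
      _ = 2 ^ (D + 1) * (∑ i, R i ^ (D + 1)) * (∑ j, C j ^ (D + 1)) * (tables R C).card := by
          rw [mul_assoc (2 ^ (D + 1)), Finset.sum_mul_sum, Finset.mul_sum, Finset.sum_mul]
          refine Finset.sum_congr rfl fun i _ => ?_
          rw [Finset.mul_sum, Finset.sum_mul]
          refine Finset.sum_congr rfl fun j _ => ?_
          rw [mul_pow, mul_pow]
      _ ≤ 2 ^ (D + 1) * (a ^ D * N) * (b ^ D * N) * (tables R C).card := by
          apply Nat.mul_le_mul_right
          exact Nat.mul_le_mul (Nat.mul_le_mul_left _ h1) h2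
      _ = _ := by
          rw [mul_pow]
          ring
  calc N ^ (D + 1) * (tables R C).card
      ≤ N ^ (D + 1) * ((goodTables R C D).card + ∑ i, ∑ j, (above R C i j (D + 1)).card) :=
        Nat.mul_le_mul_left _ (card_le_good_add D)
    _ = N ^ (D + 1) * (goodTables R C D).card
        + N ^ (D + 1) * ∑ i, ∑ j, (above R C i j (D + 1)).card := by ring
    _ ≤ _ := Nat.add_le_add_left h3 _

end

end Vale.Agent.Lib.P328
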