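import Vale.Agent.Lib.P328.FisherYates

open Finset

namespace Vale.Agent.Lib.P328

variable {m n D : ℕ}

/-- Product of the factorials of the entries of a token profile. -/
def fac (τ : Fin D → ℕ) : ℚ := ∏ L, ((τ L).factorial : ℚ)

/-- The dynamic program over the margins. `dp D m R μ` is the sum, over all ways to give each
margin `R i` a token profile `τ i` of total size `R i` such that the profiles add up to `μ`, of
the product of `1 / fac (τ i)`. The recursion removes one margin at a time and only needs the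
table of values of `dp D m (Fin.tail R)` on profiles `μ`. -/
def dp (D : ℕ) : (m : ℕ) → (Fin m → ℕ) → (Fin D → ℕ) → ℚ
  | 0, _, μ => if μ = 0 then 1 else 0
  | m + 1, R, μ => ∑ τ ∈ profOf D (R 0),
      if (∀ L, τ L ≤ μ L) then (fac τ)⁻¹ * dp D m (Fin.tail R) (fun L => μ L - τ L) else 0

/-- Weight of a token count vector `μ`: `∏ L, (μ L)! / (L+1)^(μ L)`. -/
def hallWeight (μ : Fin D → ℕ) : ℚ := ∏ L, ((μ L).factorial : ℚ) / ((L.val : ℚ) + 1) ^ μ L

/-- The approximate count: a sum over all token count vectors `μ` with entries at most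
`N = ∑ i, R i`, so over at most `(N+1)^D` vectors, of `hallWeight μ * dp R μ * dp C μ`. -/
def approxCount (D : ℕ) (R : Fin m → ℕ) (C : Fin n → ℕ) : ℚ :=
  ∑ μ ∈ Fintype.piFinset (fun _ : Fin D => Finset.range (∑ i, R i + 1)),
    hallWeight μ * dp D m R μ * dp D n C μ

/-- All assignments of token profiles to the margins. -/
def tokRows (D : ℕ) (R : Fin m → ℕ) : Finset (Fin m → Fin D → ℕ) :=
  Fintype.piFinset fun i => profOf D (R i)

theorem mem_tokRows {R : Fin m → ℕ} {τ : Fin m → Fin D → ℕ} :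
    τ ∈ tokRows D R ↔ ∀ i, wt (τ i) = R i := by
  simp [tokRows, Fintype.mem_piFinset, mem_profOf]

/-- Sum over an assignment on `Fin (m+1)`: split off the first coordinate. -/
theorem sum_tokRows_succ (R : Fin (m + 1) → ℕ) (f : (Fin (m + 1) → Fin D → ℕ) → ℚ) :
    ∑ τ ∈ tokRows D R, f τ = ∑ τ₀ ∈ profOf D (R 0), ∑ τ' ∈ tokRows D (Fin.tail R),
      f (Fin.cons τ₀ τ') := by
  classical
  rw [Finset.sum_sigma']
  refine Finset.sum_bij' (fun τ _ => ⟨τ 0, fun i => τ i.succ⟩)
    (fun p _ => Fin.cons p.1 p.2) ?_ ?_ ?_ ?_ ?_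
  · intro τ hτ
    have h := mem_tokRows.1 hτ
    simp only [mem_sigma, mem_profOf, mem_tokRows]
    exact ⟨h 0, fun i => h i.succ⟩
  · rintro ⟨τ₀, τ'⟩ hp
    simp only [mem_sigma, mem_profOf, mem_tokRows] at hp
    refine mem_tokRows.2 fun i => ?_
    refine Fin.cases ?_ (fun i => ?_) i
    · simpa using hp.1
    · simpa [Fin.tail] using hp.2 i
  · intro τ _
    funext i
    refine Fin.cases ?_ (fun i => ?_) i <;> simp
  · rintro ⟨τ₀, τ'⟩ _
    simp
  · intro τ _
    congr 1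
    funext i
    refine Fin.cases ?_ (fun i => ?_) i <;> simp

/-- Closed form of the dynamic program. -/
theorem dp_closed (R : Fin m → ℕ) (μ : Fin D → ℕ) :
    dp D m R μ = ∑ τ ∈ tokRows D R,
      if (∀ L, ∑ i, τ i L = μ L) then ∏ i, (fac (τ i))⁻¹ else 0 := by
  classical
  induction m generalizing μ with
  | zero =>
    have : tokRows D R = {fun i => Fin.elim0 i} := by
      ext τ
      simp only [mem_tokRows, mem_singleton]
      constructor
      · intro _
        funext i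
        exact Fin.elim0 i
      · intro _ i
        exact Fin.elim0 i
    rw [this, Finset.sum_singleton]
    simp only [dp, Finset.univ_eq_empty, Finset.sum_empty, Finset.prod_empty]
    by_cases h : μ = 0
    · simp [h]
    · rw [if_neg h, if_neg]
      intro h2
      apply h
      funext L
      exact (h2 L).symm
  | succ m ih =>
    rw [sum_tokRows_succ]
    simp only [dp]
    refine Finset.sum_congr rfl fun τ₀ _ => ?_
    by_cases hle : ∀ L, τ₀ L ≤ μ L
    · rw [if_pos hle, ih, Finset.mul_sum]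
      refine Finset.sum_congr rfl fun τ' _ => ?_
      have hiff : (∀ L, ∑ i, τ' i L = μ L - τ₀ L)
          ↔ ∀ L, ∑ i, (Fin.cons τ₀ τ' : Fin (m + 1) → Fin D → ℕ) i L = μ L := by
        refine forall_congr' fun L => ?_
        rw [Fin.sum_univ_succ]
        simp only [Fin.cons_zero, Fin.cons_succ]
        have := hle L
        omega
      by_cases hc : ∀ L, ∑ i, τ' i L = μ L - τ₀ L
      · rw [if_pos hc, if_pos (hiff.1 hc), Fin.prod_univ_succ]
        simp
      · rw [if_neg hc, if_neg (fun h => hc (hiff.2 h)), mul_zero]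
    · rw [if_neg hle]
      symm
      refine Finset.sum_eq_zero fun τ' _ => ?_
      rw [if_neg]
      intro h
      apply hle
      intro L
      have := h L
      rw [Fin.sum_univ_succ] at this
      simp only [Fin.cons_zero] at this
      omega

/-- `wt` is additive. -/
theorem wt_sum {ι : Type*} [Fintype ι] (θ : ι → Fin D → ℕ) :
    wt (fun L => ∑ i, θ i L) = ∑ i, wt (θ i) := by
  unfold wt
  simp only [Finset.mul_sum]
  exact Finset.sum_comm

/-- The weight of an array of token profiles. -/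
def arrWeight (Θ : Fin m → Fin n → Fin D → ℕ) : ℚ := ∏ i, ∏ j, tokWeight (Θ i j)

/-- The big box of arrays. -/
def arrBox (m n D N : ℕ) : Finset (Fin m → Fin n → Fin D → ℕ) :=
  Fintype.piFinset fun _ => Fintype.piFinset fun _ => Fintype.piFinset fun _ => Finset.range (N + 1)

theorem mem_arrBox {N : ℕ} {Θ : Fin m → Fin n → Fin D → ℕ} :
    Θ ∈ arrBox m n D N ↔ ∀ i j L, Θ i j L ≤ N := by
  simp [arrBox, Fintype.mem_piFinset]

/-- Arrays whose values form a table. -/
def arrTables (D : ℕ) (R : Fin m → ℕ) (C : Fin n → ℕ) : Finset (Fin m → Fin n → Fin D → ℕ) :=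
  (arrBox m n D (∑ i, R i)).filter fun Θ => IsTable R C fun i j => wt (Θ i j)

theorem mem_arrTables {R : Fin m → ℕ} {C : Fin n → ℕ} {Θ : Fin m → Fin n → Fin D → ℕ} :
    Θ ∈ arrTables D R C ↔ IsTable R C fun i j => wt (Θ i j) := by
  simp only [arrTables, mem_filter, mem_arrBox]
  constructor
  · exact fun h => h.2
  · intro h
    refine ⟨fun i j L => ?_, h⟩
    have h1 : Θ i j L ≤ wt (Θ i j) := le_wt _ L
    have h2 : wt (Θ i j) ≤ R i := h.le_row i j
    have h3 : R i ≤ ∑ i, R i := Finset.single_le_sum (f := R) (fun _ _ => Nat.zero_le _) (mem_univ i)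
    omega

/-- Expansion of the product of cell weights. -/
theorem sum_cellWeight (R : Fin m → ℕ) (C : Fin n → ℕ) :
    ∑ X ∈ tables R C, ∏ i, ∏ j, cellWeight D (X i j) = ∑ Θ ∈ arrTables D R C, arrWeight Θ := by
  classical
  have hexp : ∀ X : Fin m → Fin n → ℕ, ∏ i, ∏ j, cellWeight D (X i j)
      = ∑ Θ ∈ Fintype.piFinset (fun i => Fintype.piFinset fun j => profOf D (X i j)), arrWeight Θ := by
    intro X
    unfold cellWeight arrWeight
    simp_rw [Finset.prod_univ_sum]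
  simp_rw [hexp]
  rw [Finset.sum_sigma']
  refine Finset.sum_bij' (fun p _ => p.2) (fun Θ _ => ⟨fun i j => wt (Θ i j), Θ⟩) ?_ ?_ ?_ ?_ ?_
  · rintro ⟨X, Θ⟩ hp
    simp only [mem_sigma, mem_tables, Fintype.mem_piFinset, mem_profOf] at hp
    refine mem_arrTables.2 ?_
    have : (fun i j => wt (Θ i j)) = X := by
      funext i j
      exact hp.2 i j
    rw [this]
    exact hp.1
  · intro Θ hΘ
    simp only [mem_sigma, mem_tables, Fintype.mem_piFinset, mem_profOf]
    exact ⟨mem_arrTables.1 hΘ, fun _ _ => trivial⟩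
  · rintro ⟨X, Θ⟩ hp
    simp only [mem_sigma, Fintype.mem_piFinset, mem_profOf] at hp
    have : (fun i j => wt (Θ i j)) = X := by
      funext i j
      exact hp.2 i j
    simp [this]
  · intro Θ _
    rfl
  · rintro ⟨X, Θ⟩ _
    rfl

/-- Arrays with prescribed token sums along rows and columns. -/
def arrFib (N : ℕ) (τ : Fin m → Fin D → ℕ) (σ : Fin n → Fin D → ℕ) :
    Finset (Fin m → Fin n → Fin D → ℕ) :=
  (arrBox m n D N).filter fun Θ => (∀ i L, ∑ j, Θ i j L = τ i L) ∧ ∀ j L, ∑ i, Θ i j L = σ j L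

theorem sum_arrTables (R : Fin m → ℕ) (C : Fin n → ℕ) :
    ∑ Θ ∈ arrTables D R C, arrWeight Θ
      = ∑ τ ∈ tokRows D R, ∑ σ ∈ tokRows D C, ∑ Θ ∈ arrFib (∑ i, R i) τ σ, arrWeight Θ := by
  classical
  rw [← Finset.sum_product' (tokRows D R) (tokRows D C)
    (fun τ σ => ∑ Θ ∈ arrFib (∑ i, R i) τ σ, arrWeight Θ), Finset.sum_sigma']
  symm
  refine Finset.sum_bij' (fun p _ => p.2)
    (fun Θ _ => ⟨(fun i L => ∑ j, Θ i j L, fun j L => ∑ i, Θ i j L), Θ⟩) ?_ ?_ ?_ ?_ ?_
  · rintro ⟨⟨τ, σ⟩, Θ⟩ hp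
    simp only [mem_sigma, mem_product, mem_tokRows, arrFib, mem_filter] at hp
    obtain ⟨⟨hτ, hσ⟩, _, h1, h2⟩ := hp
    refine mem_arrTables.2 ⟨fun i => ?_, fun j => ?_⟩
    · rw [← wt_sum (fun j => Θ i j), ← hτ i]
      congr 1
      funext L
      exact h1 i L
    · have := wt_sum (D := D) (fun i => Θ i j)
      rw [← this, ← hσ j]
      congr 1
      funext L
      exact h2 j L
  · intro Θ hΘ
    have hT := mem_arrTables.1 hΘ
    simp only [mem_sigma, mem_product, mem_tokRows, arrFib, mem_filter]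
    refine ⟨⟨fun i => ?_, fun j => ?_⟩, (mem_filter.1 hΘ).1, fun _ _ => trivial, fun _ _ => trivial⟩
    · rw [wt_sum (fun j => Θ i j)]
      exact hT.1 i
    · rw [wt_sum (fun i => Θ i j)]
      exact hT.2 j
  · rintro ⟨⟨τ, σ⟩, Θ⟩ hp
    simp only [mem_sigma, arrFib, mem_filter] at hp
    obtain ⟨_, _, h1, h2⟩ := hp
    have e1 : (fun i L => ∑ j, Θ i j L) = τ := by
      funext i L
      exact h1 i L
    have e2 : (fun j L => ∑ i, Θ i j L) = σ := by
      funext j L
      exact h2 j L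
    simp [e1, e2]
  · intro Θ _
    rfl
  · rintro ⟨⟨τ, σ⟩, Θ⟩ _
    rfl

/-- The sum over a fibre factors over token sizes. -/
theorem sum_arrFib {R : Fin m → ℕ} {τ : Fin m → Fin D → ℕ} (hτ : τ ∈ tokRows D R)
    (σ : Fin n → Fin D → ℕ) :
    ∑ Θ ∈ arrFib (∑ i, R i) τ σ, arrWeight Θ
      = ∏ L : Fin D, ∑ Z ∈ tables (fun i => τ i L) (fun j => σ j L),
          ∏ i, ∏ j, (((L.val : ℚ) + 1) ^ Z i j * ((Z i j).factorial : ℚ))⁻¹ := by
  classical
  rw [Finset.prod_univ_sum]
  refine Finset.sum_bij' (fun Θ _ L i j => Θ i j L) (fun Z _ i j L => Z L i j) ?_ ?_ ?_ ?_ ?_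
  · intro Θ hΘ
    simp only [arrFib, mem_filter] at hΘ
    refine Fintype.mem_piFinset.2 fun L => mem_tables.2 ⟨fun i => ?_, fun j => ?_⟩
    · exact hΘ.2.1 i L
    · exact hΘ.2.2 j L
  · intro Z hZ
    have hZ' := Fintype.mem_piFinset.1 hZ
    simp only [arrFib, mem_filter, mem_arrBox]
    refine ⟨fun i j L => ?_, fun i L => (mem_tables.1 (hZ' L)).1 i, fun j L => (mem_tables.1 (hZ' L)).2 j⟩
    have h1 : Z L i j ≤ τ i L := (mem_tables.1 (hZ' L)).le_row i j
    have h2 : τ i L ≤ wt (τ i) := le_wt _ L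
    have h3 : wt (τ i) = R i := mem_tokRows.1 hτ i
    have h4 : R i ≤ ∑ i, R i := Finset.single_le_sum (f := R) (fun _ _ => Nat.zero_le _) (mem_univ i)
    omega
  · intro Θ _
    rfl
  · intro Z _
    rfl
  · intro Θ _
    unfold arrWeight tokWeight
    calc ∏ i, ∏ j, ∏ L : Fin D, (((L.val : ℚ) + 1) ^ Θ i j L * ((Θ i j L).factorial : ℚ))⁻¹
        = ∏ i, ∏ L : Fin D, ∏ j, (((L.val : ℚ) + 1) ^ Θ i j L * ((Θ i j L).factorial : ℚ))⁻¹ :=
          Finset.prod_congr rfl fun i _ => Finset.prod_comm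
      _ = ∏ L : Fin D, ∏ i, ∏ j, (((L.val : ℚ) + 1) ^ Θ i j L * ((Θ i j L).factorial : ℚ))⁻¹ :=
          Finset.prod_comm

/-- One token size. -/
theorem level_sum (T : Fin m → ℕ) (S : Fin n → ℕ) (ℓ : ℚ) (hℓ : ℓ ≠ 0) :
    ∑ Z ∈ tables T S, ∏ i, ∏ j, (ℓ ^ Z i j * ((Z i j).factorial : ℚ))⁻¹
      = if ∑ i, T i = ∑ j, S j then
          ((∑ i, T i).factorial : ℚ) / ℓ ^ (∑ i, T i)
            * (∏ i, ((T i).factorial : ℚ))⁻¹ * (∏ j, ((S j).factorial : ℚ))⁻¹
        else 0 := by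
  classical
  split_ifs with h
  · have e : ∀ Z ∈ tables T S, ∏ i, ∏ j, (ℓ ^ Z i j * ((Z i j).factorial : ℚ))⁻¹
        = (ℓ ^ (∑ i, T i))⁻¹ * ∏ i, ∏ j, (((Z i j).factorial : ℚ))⁻¹ := by
      intro Z hZ
      have hT := mem_tables.1 hZ
      simp only [mul_inv, Finset.prod_mul_distrib]
      congr 1
      simp only [Finset.prod_inv_distrib, Finset.prod_pow_eq_pow_sum]
      rw [hT.sum_all]
    rw [Finset.sum_congr rfl e, ← Finset.mul_sum, fy_sum T S h]
    have h1 : (∏ i, ((T i).factorial : ℚ)) ≠ 0 :=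
      Finset.prod_ne_zero_iff.2 fun i _ => by positivity
    have h2 : (∏ j, ((S j).factorial : ℚ)) ≠ 0 :=
      Finset.prod_ne_zero_iff.2 fun j _ => by positivity
    have h3 : ℓ ^ (∑ i, T i) ≠ 0 := pow_ne_zero _ hℓ
    field_simp
  · refine Finset.sum_eq_zero fun Z hZ => ?_
    have hT := mem_tables.1 hZ
    exact absurd (hT.sum_all.symm.trans hT.sum_all') h

/-- Product over the token sizes. -/
theorem prod_levels (τ : Fin m → Fin D → ℕ) (σ : Fin n → Fin D → ℕ) :
    ∏ L : Fin D, ∑ Z ∈ tables (fun i => τ i L) (fun j => σ j L),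
        ∏ i, ∏ j, (((L.val : ℚ) + 1) ^ Z i j * ((Z i j).factorial : ℚ))⁻¹
      = if (∀ L, ∑ i, τ i L = ∑ j, σ j L) then
          hallWeight (fun L => ∑ i, τ i L) * (∏ i, (fac (τ i))⁻¹) * ∏ j, (fac (σ j))⁻¹
        else 0 := by
  classical
  have hne : ∀ L : Fin D, ((L.val : ℚ) + 1) ≠ 0 := fun L => by positivity
  simp_rw [fun L : Fin D => level_sum (fun i => τ i L) (fun j => σ j L) _ (hne L)]
  split_ifs with h
  · rw [Finset.prod_congr rfl fun L _ => if_pos (h L)]
    simp only [Finset.prod_mul_distrib, hallWeight]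
    have e1 : ∏ L : Fin D, (∏ i, ((τ i L).factorial : ℚ))⁻¹ = ∏ i, (fac (τ i))⁻¹ := by
      unfold fac
      simp only [Finset.prod_inv_distrib]
      rw [Finset.prod_comm]
    have e2 : ∏ L : Fin D, (∏ j, ((σ j L).factorial : ℚ))⁻¹ = ∏ j, (fac (σ j))⁻¹ := by
      unfold fac
      simp only [Finset.prod_inv_distrib]
      rw [Finset.prod_comm]
    rw [e1, e2]
  · simp only [not_forall] at h
    obtain ⟨L, hL⟩ := h
    refine Finset.prod_eq_zero (Finset.mem_univ L) ?_
    rw [if_neg hL]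

/-- The dynamic program computes the weighted sum over tables. -/
theorem approxCount_eq (R : Fin m → ℕ) (C : Fin n → ℕ) :
    approxCount D R C = ∑ X ∈ tables R C, ∏ i, ∏ j, cellWeight D (X i j) := by
  classical
  rw [sum_cellWeight, sum_arrTables]
  unfold approxCount
  -- expand the program
  have h1 : ∀ μ : Fin D → ℕ, hallWeight μ * dp D m R μ * dp D n C μ
      = ∑ τ ∈ tokRows D R, ∑ σ ∈ tokRows D C,
          if (∀ L, ∑ i, τ i L = μ L) ∧ (∀ L, ∑ j, σ j L = μ L) then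
            hallWeight μ * (∏ i, (fac (τ i))⁻¹) * ∏ j, (fac (σ j))⁻¹ else 0 := by
    intro μ
    rw [dp_closed R μ, dp_closed C μ, mul_assoc, Finset.sum_mul_sum, Finset.mul_sum]
    refine Finset.sum_congr rfl fun τ _ => ?_
    rw [Finset.mul_sum]
    refine Finset.sum_congr rfl fun σ _ => ?_
    by_cases h1 : ∀ L, ∑ i, τ i L = μ L
    · by_cases h2 : ∀ L, ∑ j, σ j L = μ L
      · rw [if_pos h1, if_pos h2, if_pos ⟨h1, h2⟩]
        ring
      · have hn : ¬ ((∀ L, ∑ i, τ i L = μ L) ∧ ∀ L, ∑ j, σ j L = μ L) := fun h => h2 h.2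
        rw [if_neg h2, if_neg hn]
        ring
    · have hn : ¬ ((∀ L, ∑ i, τ i L = μ L) ∧ ∀ L, ∑ j, σ j L = μ L) := fun h => h1 h.1
      rw [if_neg h1, if_neg hn]
      ring
  simp_rw [h1]
  -- exchange the order of summation
  have h2 : ∑ μ ∈ Fintype.piFinset (fun _ : Fin D => Finset.range (∑ i, R i + 1)),
      ∑ τ ∈ tokRows D R, ∑ σ ∈ tokRows D C,
        (if (∀ L, ∑ i, τ i L = μ L) ∧ (∀ L, ∑ j, σ j L = μ L) then
            hallWeight μ * (∏ i, (fac (τ i))⁻¹) * ∏ j, (fac (σ j))⁻¹ else 0)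
      = ∑ τ ∈ tokRows D R, ∑ σ ∈ tokRows D C,
        ∑ μ ∈ Fintype.piFinset (fun _ : Fin D => Finset.range (∑ i, R i + 1)),
        (if (∀ L, ∑ i, τ i L = μ L) ∧ (∀ L, ∑ j, σ j L = μ L) then
            hallWeight μ * (∏ i, (fac (τ i))⁻¹) * ∏ j, (fac (σ j))⁻¹ else 0) := by
    rw [Finset.sum_comm]
    refine Finset.sum_congr rfl fun τ _ => ?_
    rw [Finset.sum_comm]
  rw [h2]
  refine Finset.sum_congr rfl fun τ hτ => Finset.sum_congr rfl fun σ _ => ?_
  rw [sum_arrFib hτ σ, prod_levels]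
  -- the inner sum has one term
  have hbox : (fun L => ∑ i, τ i L) ∈ Fintype.piFinset (fun _ : Fin D => Finset.range (∑ i, R i + 1)) := by
    refine Fintype.mem_piFinset.2 fun L => ?_
    rw [mem_range, Nat.lt_succ_iff]
    refine Finset.sum_le_sum fun i _ => ?_
    rw [← mem_tokRows.1 hτ i]
    exact le_wt _ L
  rw [Finset.sum_eq_single (fun L => ∑ i, τ i L)]
  · by_cases h : ∀ L, ∑ i, τ i L = ∑ j, σ j L
    · rw [if_pos h, if_pos ⟨fun _ => rfl, fun L => (h L).symm⟩]
    · rw [if_neg h, if_neg (fun h3 => h fun L => (h3.2 L).symm)]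
  · intro μ _ hμ
    rw [if_neg]
    intro h3
    apply hμ
    funext L
    exact (h3.1 L).symm
  · intro h3
    exact absurd hbox h3

end Vale.Agent.Lib.P328
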